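import Mathlib

/-!
# P064: random graphs and the two thresholds

`SimpleGraph.copyCount G F` (Mathlib) is the number of subgraphs of `G` isomorphic to `F`.
-/

namespace P064

/-- Probability that the random graph `G(n,p)` on the vertex set `Fin n` is equal to `G`. -/
noncomputable def weight (n : ℕ) (p : ℝ) (G : SimpleGraph (Fin n)) : ℝ :=
  p ^ G.edgeSet.ncard * (1 - p) ^ (n.choose 2 - G.edgeSet.ncard)

/-- Expectation of `X (G(n,p))`. -/
noncomputable def expect (n : ℕ) (p : ℝ) (X : SimpleGraph (Fin n) → ℝ) : ℝ :=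
  ∑ G : SimpleGraph (Fin n), weight n p G * X G

open Classical in
/-- Probability of the event `A (G(n,p))`. -/
noncomputable def prob (n : ℕ) (p : ℝ) (A : SimpleGraph (Fin n) → Prop) : ℝ :=
  expect n p (fun G => if A G then 1 else 0)

/-- The threshold `p_c(n,H)`: the least `p` such that `G(n,p)` contains a copy of `H` with
probability at least `1/2`. -/
noncomputable def pc {W : Type} (n : ℕ) (H : SimpleGraph W) : ℝ :=
  sInf {p : ℝ | 0 ≤ p ∧ p ≤ 1 ∧ 1 / 2 ≤ prob n p (fun G => 0 < G.copyCount H)}

/-- The expectation threshold `p_E(n,H)`: the least `p` such that for every subgraph `F` of `H` the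
expected number of copies of `F` in `G(n,p)` is at least `1/2`. -/
noncomputable def pE {W : Type} (n : ℕ) (H : SimpleGraph W) : ℝ :=
  sInf {p : ℝ | 0 ≤ p ∧ p ≤ 1 ∧
    ∀ F : H.Subgraph, 1 / 2 ≤ expect n p (fun G => (G.copyCount F.coe : ℝ))}

end P064
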