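import Mathlib

/-!
# P064: the orbit theorem

A finite group `G` acts on a finite set `E`; `H` is a finite subset of `E` such that for every
`K ⊆ H` at most `2 q ^ |K| |G|` elements of `G` fix the set `K`.  Then for every set `Q` of size
`m` with `|H| ≤ 2 ^ k m` at most `((4 + 32 k) q) ^ m |G|` elements `g` satisfy `g Q ⊆ H`.
-/

open Finset Pointwise

namespace P064

variable (G : Type*) {E : Type*} [Group G] [Fintype G] [Fintype E] [DecidableEq E] [MulAction G E]

/-- the number of `g` with `g • Q ⊆ K` -/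
def cnt (Q K : Finset E) : ℕ := #{g : G | g • Q ⊆ K}

/-- the number of pairs `(A, g)` with `A ⊆ Q`, `|A| = s` and `g • (Q \ A) ⊆ K`. -/
def NN (Q : Finset E) (s : ℕ) (K : Finset E) : ℕ := ∑ A ∈ Q.powersetCard s, cnt G (Q \ A) K

variable {G}

theorem cnt_smul (g : G) (Q K : Finset E) : cnt G Q (g • K) = cnt G Q K := by
  unfold cnt
  symm
  apply Finset.card_bij (fun h _ => g * h)
  · intro h hh
    simp only [mem_filter, mem_univ, true_and] at hh ⊢
    rw [mul_smul]
    exact smul_finset_subset_smul_finset hh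
  · intro a _ b _ hab
    exact mul_left_cancel hab
  · intro h hh
    simp only [mem_filter, mem_univ, true_and] at hh
    refine ⟨g⁻¹ * h, ?_, by simp⟩
    simp only [mem_filter, mem_univ, true_and]
    rw [mul_smul]
    rw [subset_smul_finset_iff] at hh
    exact hh

theorem NN_smul (g : G) (Q : Finset E) (s : ℕ) (K : Finset E) :
    NN G Q s (g • K) = NN G Q s K := by
  unfold NN
  exact Finset.sum_congr rfl (fun A _ => cnt_smul g _ _)

theorem NN_zero (Q K : Finset E) : NN G Q 0 K = cnt G Q K := by
  unfold NN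
  simp

/-- the number of `g` with `|gQ \ K| = s` is at most `NN s K`. -/
theorem card_sdiff_le (Q : Finset E) (s : ℕ) (K : Finset E) :
    #{g : G | #(g • Q \ K) = s} ≤ NN G Q s K := by
  classical
  unfold NN cnt
  refine le_trans (card_le_card ?_) card_biUnion_le
  intro g hg
  simp only [mem_filter, mem_univ, true_and] at hg
  rw [mem_biUnion]
  refine ⟨Q.filter (fun x => g • x ∉ K), ?_, ?_⟩
  · rw [mem_powersetCard]
    refine ⟨filter_subset _ _, ?_⟩
    rw [← hg]
    have : g • Q \ K = g • (Q.filter (fun x => g • x ∉ K)) := by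
      ext y
      simp only [mem_sdiff, mem_smul_finset, mem_filter]
      constructor
      · rintro ⟨⟨x, hx, rfl⟩, hy⟩
        exact ⟨x, ⟨hx, hy⟩, rfl⟩
      · rintro ⟨x, ⟨hx, hy⟩, rfl⟩
        exact ⟨⟨x, hx, rfl⟩, hy⟩
    rw [this, card_smul_finset]
  · simp only [mem_filter, mem_univ, true_and]
    intro y hy
    rw [mem_smul_finset] at hy
    obtain ⟨x, hx, rfl⟩ := hy
    rw [mem_sdiff, mem_filter] at hx
    by_contra h
    exact hx.2 ⟨hx.1, h⟩

/-- the weight of a transition -/
noncomputable def wt (Q K : Finset E) (g : G) : ℝ :=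
  (1 / 8) ^ #(g • Q \ K) / NN G Q #(g • Q \ K) K

theorem wt_nonneg (Q K : Finset E) (g : G) : 0 ≤ wt Q K g := by
  unfold wt; positivity

theorem wt_smul (a g : G) (Q K : Finset E) : wt Q (a • K) (a * g) = wt Q K g := by
  unfold wt
  rw [mul_smul, ← smul_finset_sdiff, card_smul_finset, NN_smul]

variable (G)

/-- the total transition weight from `L` to `K` -/
noncomputable def PP (Q L K : Finset E) : ℝ := ∑ g : G, if L ∪ g • Q = K then wt Q L g else 0

variable {G}

theorem PP_nonneg (Q L K : Finset E) : 0 ≤ PP G Q L K := by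
  unfold PP
  apply sum_nonneg
  intro g _
  split_ifs
  · exact wt_nonneg _ _ _
  · exact le_refl _

theorem PP_smul (a : G) (Q L K : Finset E) : PP G Q (a • L) (a • K) = PP G Q L K := by
  unfold PP
  symm
  apply Fintype.sum_equiv (Equiv.mulLeft a)
  intro g
  have h1 : (a • L ∪ (a * g) • Q = a • K) ↔ (L ∪ g • Q = K) := by
    rw [mul_smul, ← smul_finset_union]
    constructor
    · intro h
      exact smul_left_cancel a h
    · intro h
      rw [h]
  simp only [Equiv.coe_mulLeft, h1, wt_smul]

variable (G)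

/-- the total weight of the trajectories from the empty set to `K` -/
noncomputable def bb (Q : Finset E) (h : ℕ) (K : Finset E) : ℝ :=
  if K = ∅ then 1 else ∑ L : Finset E, if _hL : L ⊂ K ∧ 2 * #L ≤ h then bb Q h L * PP G Q L K else 0
termination_by #K
decreasing_by exact card_lt_card _hL.1

variable {G}

theorem bb_empty (Q : Finset E) (h : ℕ) : bb G Q h ∅ = 1 := by
  rw [bb]
  simp

theorem bb_ne {Q : Finset E} {h : ℕ} {K : Finset E} (hK : K ≠ ∅) :
    bb G Q h K = ∑ L : Finset E, if L ⊂ K ∧ 2 * #L ≤ h then bb G Q h L * PP G Q L K else 0 := by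
  rw [bb, if_neg hK]
  apply sum_congr rfl
  intro L _
  split_ifs <;> rfl

theorem bb_nonneg (Q : Finset E) (h : ℕ) (K : Finset E) : 0 ≤ bb G Q h K := by
  induction hn : #K using Nat.strong_induction_on generalizing K with
  | _ n ih =>
    by_cases hK : K = ∅
    · rw [hK, bb_empty]; norm_num
    · rw [bb_ne hK]
      apply sum_nonneg
      intro L _
      split_ifs with hL
      · exact mul_nonneg (ih _ (by rw [← hn]; exact card_lt_card hL.1) L rfl) (PP_nonneg _ _ _)
      · exact le_refl _

theorem bb_smul (Q : Finset E) (h : ℕ) (a : G) (K : Finset E) :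
    bb G Q h (a • K) = bb G Q h K := by
  induction hn : #K using Nat.strong_induction_on generalizing K with
  | _ n ih =>
    by_cases hK : K = ∅
    · rw [hK, smul_finset_empty]
    · have hK' : a • K ≠ ∅ := by
        intro h'
        exact hK (smul_finset_eq_empty.1 h')
      rw [bb_ne hK, bb_ne hK']
      symm
      apply Fintype.sum_equiv (MulAction.toPerm a)
      intro L
      have h1 : (a • L ⊂ a • K ∧ 2 * #(a • L) ≤ h) ↔ (L ⊂ K ∧ 2 * #L ≤ h) := by
        rw [card_smul_finset, ssubset_iff_subset_ne, ssubset_iff_subset_ne,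
          smul_finset_subset_smul_finset_iff]
        have : a • L ≠ a • K ↔ L ≠ K := by
          rw [not_iff_not]
          exact ⟨fun h => smul_left_cancel a h, fun h => by rw [h]⟩
        rw [this]
      simp only [MulAction.toPerm_apply, h1]
      split_ifs with hL
      · rw [ih _ (by rw [← hn]; exact card_lt_card hL.1) L rfl, PP_smul]
      · rfl

/-- For fixed `L`, the transitions that add `s` points have total weight at most `8 ^ (-s)`. -/
theorem sum_wt_le (Q L : Finset E) (s : ℕ) :
    ∑ g : G, (if #(g • Q \ L) = s then wt Q L g else 0) ≤ (1 / 8) ^ s := by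
  rw [← sum_filter]
  have h1 : ∑ g ∈ univ.filter (fun g : G => #(g • Q \ L) = s), wt Q L g
      = #{g : G | #(g • Q \ L) = s} * ((1 / 8) ^ s / (NN G Q s L : ℝ)) := by
    rw [← nsmul_eq_mul, ← sum_const]
    apply sum_congr rfl
    intro g hg
    rw [mem_filter] at hg
    unfold wt
    rw [hg.2]
  rw [h1]
  have h2 : (#{g : G | #(g • Q \ L) = s} : ℝ) ≤ NN G Q s L := by
    exact_mod_cast card_sdiff_le (G := G) Q s L
  rcases Nat.eq_zero_or_pos (NN G Q s L) with h0 | h0
  · rw [h0]; simp
  · have h3 : (0 : ℝ) < NN G Q s L := by exact_mod_cast h0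
    calc (#{g : G | #(g • Q \ L) = s} : ℝ) * ((1 / 8) ^ s / (NN G Q s L : ℝ))
        ≤ (NN G Q s L : ℝ) * ((1 / 8) ^ s / (NN G Q s L : ℝ)) := by gcongr
      _ = (1 / 8) ^ s := by field_simp

variable (G)

/-- the level sums -/
noncomputable def SS (Q : Finset E) (h n : ℕ) : ℝ := ∑ K : Finset E, if #K = n then bb G Q h K else 0

variable {G}

theorem SS_zero (Q : Finset E) (h : ℕ) : SS G Q h 0 = 1 := by
  unfold SS
  rw [← bb_empty (G := G) Q h]
  simp only [card_eq_zero]
  simp

theorem SS_nonneg (Q : Finset E) (h n : ℕ) : 0 ≤ SS G Q h n := by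
  unfold SS
  apply sum_nonneg
  intro K _
  split_ifs
  · exact bb_nonneg _ _ _
  · exact le_refl _

/-- For fixed `L`, the sum over `K ⊃ L` with `|K| = n`. -/
theorem sum_PP_le (Q L : Finset E) (n : ℕ) (hL : #L < n) :
    ∑ K : Finset E, (if #K = n ∧ L ⊂ K then PP G Q L K else 0) ≤ (1 / 8) ^ (n - #L) := by
  have h1 : ∑ K : Finset E, (if #K = n ∧ L ⊂ K then PP G Q L K else 0)
      = ∑ g : G, ∑ K : Finset E, (if #K = n ∧ L ⊂ K then (if L ∪ g • Q = K then wt Q L g else 0)
        else 0) := by
    rw [sum_comm]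
    apply sum_congr rfl
    intro K _
    unfold PP
    split_ifs
    · rfl
    · simp
  rw [h1]
  refine le_trans (sum_le_sum ?_) (sum_wt_le Q L (n - #L))
  intro g _
  have h2 : ∑ K : Finset E, (if #K = n ∧ L ⊂ K then (if L ∪ g • Q = K then wt Q L g else 0)
        else 0) = if #(L ∪ g • Q) = n ∧ L ⊂ L ∪ g • Q then wt Q L g else 0 := by
    rw [Finset.sum_eq_single (L ∪ g • Q)]
    · simp
    · intro K _ hK
      split_ifs with h3 h4
      · exact absurd h4.symm hK
      · rfl
      · rfl
    · intro h; exact absurd (mem_univ _) h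
  rw [h2]
  split_ifs with h3 h4 h4
  · exact le_refl _
  · exfalso
    apply h4
    have h5 : #(L ∪ g • Q) = #L + #(g • Q \ L) := by
      rw [← union_sdiff_self_eq_union, card_union_of_disjoint disjoint_sdiff]
    omega
  · exact wt_nonneg _ _ _
  · exact le_refl _

theorem SS_rec (Q : Finset E) (h n : ℕ) (hn : 0 < n) :
    SS G Q h n * 8 ^ n ≤ ∑ m ∈ range n, SS G Q h m * 8 ^ m := by
  have h1 : SS G Q h n ≤ ∑ L : Finset E, if #L < n then bb G Q h L * (1 / 8) ^ (n - #L) else 0 := by
    calc SS G Q h n = ∑ K : Finset E, ∑ L : Finset E, (if #K = n then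
          (if L ⊂ K ∧ 2 * #L ≤ h then bb G Q h L * PP G Q L K else 0) else 0) := by
          unfold SS
          apply sum_congr rfl
          intro K _
          split_ifs with hK
          · rw [bb_ne]
            intro h'
            rw [h', card_empty] at hK
            omega
          · simp
      _ = ∑ L : Finset E, ∑ K : Finset E, (if #K = n then
          (if L ⊂ K ∧ 2 * #L ≤ h then bb G Q h L * PP G Q L K else 0) else 0) := sum_comm
      _ ≤ ∑ L : Finset E, if #L < n then bb G Q h L * (1 / 8) ^ (n - #L) else 0 := by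
          apply sum_le_sum
          intro L _
          split_ifs with hL
          · calc ∑ K : Finset E, (if #K = n then
                (if L ⊂ K ∧ 2 * #L ≤ h then bb G Q h L * PP G Q L K else 0) else 0)
                ≤ ∑ K : Finset E, bb G Q h L * (if #K = n ∧ L ⊂ K then PP G Q L K else 0) := by
                  apply sum_le_sum
                  intro K _
                  have hb := bb_nonneg (G := G) Q h L
                  have hp := PP_nonneg (G := G) Q L K
                  have hbp := mul_nonneg hb hp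
                  by_cases h3 : #K = n
                  · by_cases h4 : L ⊂ K
                    · by_cases h5 : 2 * #L ≤ h
                      · simp [h3, h4, h5]
                      · simp only [h3, h4, h5, and_false, if_true, if_false, and_self]
                        exact hbp
                    · simp [h4]
                  · simp [h3]
              _ = bb G Q h L * ∑ K : Finset E, (if #K = n ∧ L ⊂ K then PP G Q L K else 0) := by
                  rw [mul_sum]
              _ ≤ bb G Q h L * (1 / 8) ^ (n - #L) :=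
                  mul_le_mul_of_nonneg_left (sum_PP_le Q L n hL) (bb_nonneg _ _ _)
          · apply le_of_eq
            apply sum_eq_zero
            intro K _
            split_ifs with h3 h4
            · exfalso
              apply hL
              rw [← h3]
              exact card_lt_card h4.1
            · rfl
            · rfl
  have h2 : (∑ L : Finset E, if #L < n then bb G Q h L * (1 / 8) ^ (n - #L) else 0) * 8 ^ n
      = ∑ m ∈ range n, SS G Q h m * 8 ^ m := by
    unfold SS
    simp_rw [sum_mul]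
    rw [sum_comm]
    apply sum_congr rfl
    intro L _
    have h3 : ∑ m ∈ range n, (if #L = m then bb G Q h L else 0) * (8 : ℝ) ^ m
        = if #L < n then bb G Q h L * 8 ^ #L else 0 := by
      simp_rw [ite_mul, zero_mul]
      rw [Finset.sum_ite_eq]
      simp
    rw [h3]
    split_ifs with hL
    · have : (8 : ℝ) ^ n = 8 ^ (n - #L) * 8 ^ #L := by rw [← pow_add]; congr 1; omega
      rw [this, one_div, inv_pow]
      field_simp
    · simp
  calc SS G Q h n * 8 ^ n
      ≤ (∑ L : Finset E, if #L < n then bb G Q h L * (1 / 8) ^ (n - #L) else 0) * 8 ^ n := by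
        gcongr
    _ = _ := h2

theorem SS_bound (Q : Finset E) (h n : ℕ) (hn : 0 < n) :
    2 * SS G Q h n ≤ (1 / 4) ^ n := by
  have h1 : ∀ k : ℕ, ∑ m ∈ range (k + 1), SS G Q h m * 8 ^ m ≤ 2 ^ k := by
    intro k
    induction k with
    | zero => simp [SS_zero]
    | succ k ih =>
      rw [sum_range_succ]
      have := SS_rec (G := G) Q h (k + 1) (by omega)
      rw [pow_succ 2 k]
      linarith
  obtain ⟨k, rfl⟩ : ∃ k, n = k + 1 := ⟨n - 1, by omega⟩
  have h2 := (SS_rec (G := G) Q h (k + 1) (by omega)).trans (h1 k)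
  have h3 : (8 : ℝ) ^ (k + 1) = 2 * 2 ^ k * 4 ^ (k + 1) := by
    rw [show (8 : ℝ) = 2 * 4 by norm_num, mul_pow]
    ring
  rw [h3] at h2
  have h4 : (2 * SS G Q h (k + 1) * 4 ^ (k + 1)) * 2 ^ k ≤ 1 * 2 ^ k := by
    calc (2 * SS G Q h (k + 1) * 4 ^ (k + 1)) * 2 ^ k
        = SS G Q h (k + 1) * (2 * 2 ^ k * 4 ^ (k + 1)) := by ring
      _ ≤ 2 ^ k := h2
      _ = 1 * 2 ^ k := by ring
  have h5 := le_of_mul_le_mul_right h4 (by positivity)
  rw [one_div, inv_pow]
  rw [← one_div]
  rw [le_div_iff₀ (by positivity)]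
  exact h5

/-- Few group elements map `K` to a given set. -/
theorem card_map_le {H : Finset E} {q : ℝ}
    (hstab : ∀ K ⊆ H, (#{g : G | g • K = K} : ℝ) ≤ 2 * q ^ #K * Fintype.card G)
    {K : Finset E} (hK : K ⊆ H) (hq : 0 ≤ q) (K' : Finset E) :
    (#{g : G | g • K' = K} : ℝ) ≤ 2 * q ^ #K * Fintype.card G := by
  rcases (univ.filter (fun g : G => g • K' = K)).eq_empty_or_nonempty with h | ⟨a, ha⟩
  · rw [h]
    simp only [card_empty, Nat.cast_zero]
    positivity
  · rw [mem_filter] at ha
    refine le_trans (le_of_eq ?_) (hstab K hK)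
    congr 1
    apply card_bij (fun g _ => g * a⁻¹)
    · intro g hg
      simp only [mem_filter, mem_univ, true_and] at hg ⊢
      conv_lhs => rw [← ha.2]
      rw [smul_smul, inv_mul_cancel_right]
      exact hg
    · intro g _ g' _ h
      exact mul_right_cancel h
    · intro g hg
      simp only [mem_filter, mem_univ, true_and] at hg
      refine ⟨g * a, ?_, by simp⟩
      simp only [mem_filter, mem_univ, true_and]
      rw [mul_smul, ha.2]
      exact hg

theorem card_map_le' {H : Finset E} {q : ℝ}
    (hstab : ∀ K ⊆ H, (#{g : G | g • K = K} : ℝ) ≤ 2 * q ^ #K * Fintype.card G)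
    {K : Finset E} (hK : K ⊆ H) (hq : 0 ≤ q) (K' : Finset E) :
    (#{g : G | g • K = K'} : ℝ) ≤ 2 * q ^ #K * Fintype.card G := by
  refine le_trans (le_of_eq ?_) (card_map_le (G := G) hstab hK hq K')
  congr 1
  apply card_bij (fun g _ => g⁻¹)
  · intro g hg
    simp only [mem_filter, mem_univ, true_and] at hg ⊢
    rw [← hg, inv_smul_smul]
  · intro g _ g' _ h
    exact inv_injective h
  · intro g hg
    simp only [mem_filter, mem_univ, true_and] at hg
    refine ⟨g⁻¹, ?_, by simp⟩
    simp only [mem_filter, mem_univ, true_and]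
    rw [← hg, inv_smul_smul]

/-- By invariance, the weight of a non-empty `K ⊆ H` is small. -/
theorem bb_le {H : Finset E} {q : ℝ}
    (hstab : ∀ K ⊆ H, (#{g : G | g • K = K} : ℝ) ≤ 2 * q ^ #K * Fintype.card G)
    {K : Finset E} (hK : K ⊆ H) (hK0 : K.Nonempty) (hq : 0 ≤ q) (Q : Finset E) (h : ℕ) :
    bb G Q h K ≤ q ^ #K * (1 / 4) ^ #K := by
  have hG : (0 : ℝ) < Fintype.card G := by exact_mod_cast Fintype.card_pos
  have h1 : (Fintype.card G : ℝ) * bb G Q h K = ∑ g : G, bb G Q h (g • K) := by
    simp only [bb_smul, sum_const, card_univ, nsmul_eq_mul]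
  have h2 : ∑ g : G, bb G Q h (g • K)
      = ∑ K' : Finset E, (#{g : G | g • K = K'} : ℝ) * bb G Q h K' := by
    have : ∀ g : G, bb G Q h (g • K) = ∑ K' : Finset E, if g • K = K' then bb G Q h K' else 0 := by
      intro g
      rw [Finset.sum_ite_eq]
      simp
    simp_rw [this]
    rw [sum_comm]
    apply sum_congr rfl
    intro K' _
    rw [← sum_filter, sum_const, nsmul_eq_mul]
  have h3 : ∑ K' : Finset E, (#{g : G | g • K = K'} : ℝ) * bb G Q h K'
      ≤ 2 * q ^ #K * Fintype.card G * SS G Q h #K := by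
    unfold SS
    rw [mul_sum]
    apply sum_le_sum
    intro K' _
    split_ifs with hc
    · exact mul_le_mul_of_nonneg_right (card_map_le' hstab hK hq K') (bb_nonneg _ _ _)
    · have : (univ.filter (fun g : G => g • K = K')) = ∅ := by
        rw [filter_eq_empty_iff]
        intro g _ hg
        apply hc
        rw [← hg, card_smul_finset]
      rw [this]
      simp
  have h4 := SS_bound (G := G) Q h #K (card_pos.2 hK0)
  have h5 : (Fintype.card G : ℝ) * bb G Q h K ≤ Fintype.card G * (q ^ #K * (1 / 4) ^ #K) := by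
    rw [h1, h2]
    refine h3.trans ?_
    have h6 : q ^ #K * (Fintype.card G : ℝ) * (2 * SS G Q h #K)
        ≤ q ^ #K * (Fintype.card G : ℝ) * (1 / 4) ^ #K :=
      mul_le_mul_of_nonneg_left h4 (by positivity)
    linarith
  exact le_of_mul_le_mul_left h5 hG

/-- The halving step. -/
theorem halving {H : Finset E} {q : ℝ} (hq : 0 < q)
    (hstab : ∀ K ⊆ H, (#{g : G | g • K = K} : ℝ) ≤ 2 * q ^ #K * Fintype.card G)
    (Q : Finset E) {H' : Finset E} (hH' : H' ⊆ H) :
    ∃ K ⊆ H', 2 * #K ≤ #H' ∧
      (cnt G Q H' : ℝ) ≤ ∑ s ∈ range (#Q + 1), (8 * q) ^ s * NN G Q s K := by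
  by_contra hcon
  push Not at hcon
  set h := #H' with hh
  have hh0 : 0 < h := by
    by_contra h0
    have h1 : H' = ∅ := by
      rw [← card_eq_zero]; omega
    have h2 := hcon H' (le_refl _) (by omega)
    rw [sum_range_succ'] at h2
    rw [NN_zero] at h2
    have h3 : 0 ≤ ∑ k ∈ range #Q, (8 * q) ^ (k + 1) * (NN G Q (k + 1) H' : ℝ) :=
      sum_nonneg (fun _ _ => by positivity)
    simp only [pow_zero, one_mul] at h2
    linarith
  -- the outgoing weight
  have hW : ∀ L ⊆ H', 2 * #L ≤ h → 1 ≤ ∑ g : G, (if g • Q ⊆ H' ∧ ¬ g • Q ⊆ L then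
      wt Q L g / q ^ #(g • Q \ L) else 0) := by
    intro L hL hL2
    have h1 := hcon L hL hL2
    have h2 : (cnt G Q H' : ℝ) = ∑ s ∈ range (#Q + 1),
        (#{g : G | g • Q ⊆ H' ∧ #(g • Q \ L) = s} : ℝ) := by
      have : cnt G Q H' = ∑ s ∈ range (#Q + 1), #{g : G | g • Q ⊆ H' ∧ #(g • Q \ L) = s} := by
        unfold cnt
        rw [card_eq_sum_card_fiberwise (f := fun g : G => #(g • Q \ L)) (t := range (#Q + 1))]
        · apply sum_congr rfl
          intro s _
          rw [filter_filter]
        · intro g _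
          simp only [coe_range, Set.mem_Iio]
          have : #(g • Q \ L) ≤ #(g • Q) := card_le_card sdiff_subset
          rw [card_smul_finset] at this
          omega
      rw [this]
      push_cast
      rfl
    rw [h2] at h1
    obtain ⟨s, hs, hlt⟩ := exists_lt_of_sum_lt h1
    have hs0 : s ≠ 0 := by
      rintro rfl
      rw [NN_zero, pow_zero, one_mul] at hlt
      have : #{g : G | g • Q ⊆ H' ∧ #(g • Q \ L) = 0} ≤ cnt G Q L := by
        unfold cnt
        apply card_le_card
        intro g hg
        simp only [mem_filter, mem_univ, true_and, card_eq_zero, sdiff_eq_empty_iff_subset] at hg ⊢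
        exact hg.2
      have h3 : (#{g : G | g • Q ⊆ H' ∧ #(g • Q \ L) = 0} : ℝ) ≤ cnt G Q L := by exact_mod_cast this
      linarith
    have hNpos : (0 : ℝ) < NN G Q s L := by
      have h3 : #{g : G | g • Q ⊆ H' ∧ #(g • Q \ L) = s} ≤ NN G Q s L := by
        refine le_trans (card_le_card ?_) (card_sdiff_le Q s L)
        intro g hg
        simp only [mem_filter, mem_univ, true_and] at hg ⊢
        exact hg.2
      have h4 : (#{g : G | g • Q ⊆ H' ∧ #(g • Q \ L) = s} : ℝ) ≤ NN G Q s L := by exact_mod_cast h3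
      have h5 : (0 : ℝ) ≤ (8 * q) ^ s * NN G Q s L := by positivity
      linarith
    have h6 : ∑ g ∈ univ.filter (fun g : G => g • Q ⊆ H' ∧ #(g • Q \ L) = s),
        wt Q L g / q ^ #(g • Q \ L) ≤ ∑ g : G, (if g • Q ⊆ H' ∧ ¬ g • Q ⊆ L then
        wt Q L g / q ^ #(g • Q \ L) else 0) := by
      rw [sum_filter]
      apply sum_le_sum
      intro g _
      have h7 : 0 ≤ wt Q L g / q ^ #(g • Q \ L) := div_nonneg (wt_nonneg _ _ _) (by positivity)
      split_ifs with h8 h9 h9
      · exact le_refl _
      · exfalso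
        apply h9
        refine ⟨h8.1, ?_⟩
        intro h10
        rw [sdiff_eq_empty_iff_subset.2 h10] at h8
        exact hs0 h8.2.symm
      · exact h7
      · exact le_refl _
    refine le_trans ?_ h6
    have h7 : ∑ g ∈ univ.filter (fun g : G => g • Q ⊆ H' ∧ #(g • Q \ L) = s),
        wt Q L g / q ^ #(g • Q \ L) =
        (#{g : G | g • Q ⊆ H' ∧ #(g • Q \ L) = s} : ℝ) * ((1 / 8) ^ s / NN G Q s L / q ^ s) := by
      rw [← nsmul_eq_mul, ← sum_const]
      apply sum_congr rfl
      intro g hg
      simp only [mem_filter, mem_univ, true_and] at hg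
      unfold wt
      rw [hg.2]
    rw [h7]
    have h8 : (1 : ℝ) = ((8 * q) ^ s * NN G Q s L) * ((1 / 8) ^ s / NN G Q s L / q ^ s) := by
      rw [mul_pow, one_div, inv_pow]
      field_simp
    calc (1 : ℝ) = ((8 * q) ^ s * NN G Q s L) * ((1 / 8) ^ s / NN G Q s L / q ^ s) := h8
      _ ≤ _ := by
        apply mul_le_mul_of_nonneg_right hlt.le
        positivity
  -- conservation
  have hcons : ∀ L ⊆ H', 2 * #L ≤ h → 1 / q ^ #L ≤
      ∑ K ∈ H'.powerset.erase ∅, (if L ⊂ K then PP G Q L K / q ^ #K else 0) := by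
    intro L hL hL2
    have h1 : ∑ K ∈ H'.powerset.erase ∅, (if L ⊂ K then PP G Q L K / q ^ #K else 0)
        = ∑ g : G, ∑ K ∈ H'.powerset.erase ∅,
          (if L ⊂ K then (if L ∪ g • Q = K then wt Q L g / q ^ #K else 0) else 0) := by
      rw [sum_comm]
      apply sum_congr rfl
      intro K _
      unfold PP
      split_ifs
      · rw [sum_div]
        apply sum_congr rfl
        intro g _
        split_ifs <;> simp
      · simp
    rw [h1]
    have h2 := mul_le_mul_of_nonneg_right (hW L hL hL2) (show 0 ≤ 1 / q ^ #L by positivity)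
    rw [one_mul, sum_mul] at h2
    refine h2.trans (sum_le_sum ?_)
    intro g _
    split_ifs with h3
    · have hne : L ≠ L ∪ g • Q := by
        intro h4
        apply h3.2
        rw [h4]
        exact subset_union_right
      have hss : L ⊂ L ∪ g • Q := Finset.ssubset_iff_subset_ne.2 ⟨subset_union_left, hne⟩
      have hmem : L ∪ g • Q ∈ H'.powerset.erase ∅ := by
        rw [mem_erase, mem_powerset]
        refine ⟨?_, union_subset hL h3.1⟩
        intro h4
        rw [h4] at hss
        exact absurd hss (not_ssubset_empty _)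
      have h5 : #(L ∪ g • Q) = #L + #(g • Q \ L) := by
        rw [← union_sdiff_self_eq_union, card_union_of_disjoint disjoint_sdiff]
      refine le_trans (le_of_eq ?_) (single_le_sum (f := fun K =>
        (if L ⊂ K then (if L ∪ g • Q = K then wt Q L g / q ^ #K else 0) else 0)) ?_ hmem)
      · simp only [hss, if_true]
        rw [h5, pow_add]
        field_simp
      · intro K _
        split_ifs
        · exact div_nonneg (wt_nonneg _ _ _) (by positivity)
        · exact le_refl _
        · exact le_refl _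
    · rw [zero_mul]
      apply sum_nonneg
      intro K _
      split_ifs
      · exact div_nonneg (wt_nonneg _ _ _) (by positivity)
      · exact le_refl _
      · exact le_refl _
  have hF1 : ∑ L ∈ H'.powerset.filter (fun L => 2 * #L ≤ h), bb G Q h L / q ^ #L
      ≤ ∑ K ∈ H'.powerset.erase ∅, bb G Q h K / q ^ #K := by
    calc ∑ L ∈ H'.powerset.filter (fun L => 2 * #L ≤ h), bb G Q h L / q ^ #L
        ≤ ∑ L ∈ H'.powerset.filter (fun L => 2 * #L ≤ h),
          ∑ K ∈ H'.powerset.erase ∅, (if L ⊂ K then bb G Q h L * PP G Q L K / q ^ #K else 0) := by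
          apply sum_le_sum
          intro L hL
          rw [mem_filter, mem_powerset] at hL
          have h1 := mul_le_mul_of_nonneg_left (hcons L hL.1 hL.2) (bb_nonneg (G := G) Q h L)
          rw [mul_one_div, mul_sum] at h1
          refine h1.trans (le_of_eq ?_)
          apply sum_congr rfl
          intro K _
          rw [mul_ite, mul_zero, mul_div_assoc]
      _ = ∑ K ∈ H'.powerset.erase ∅, ∑ L ∈ H'.powerset.filter (fun L => 2 * #L ≤ h),
          (if L ⊂ K then bb G Q h L * PP G Q L K / q ^ #K else 0) := sum_comm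
      _ ≤ ∑ K ∈ H'.powerset.erase ∅, bb G Q h K / q ^ #K := by
          apply sum_le_sum
          intro K hK
          rw [mem_erase, mem_powerset] at hK
          rw [bb_ne hK.1, sum_div, sum_filter]
          refine le_trans ?_ (sum_le_univ_sum_of_nonneg (s := H'.powerset) ?_)
          · apply sum_le_sum
            intro L _
            by_cases h1 : 2 * #L ≤ h
            · by_cases h2 : L ⊂ K
              · simp [h1, h2]
              · simp [h2]
            · simp [h1]
          · intro L
            split_ifs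
            · exact div_nonneg (mul_nonneg (bb_nonneg _ _ _) (PP_nonneg _ _ _)) (by positivity)
            · simp
  have hsplit : ∑ K ∈ H'.powerset, bb G Q h K / q ^ #K
      = ∑ L ∈ H'.powerset.filter (fun L => 2 * #L ≤ h), bb G Q h L / q ^ #L
        + ∑ K ∈ H'.powerset.filter (fun L => ¬ 2 * #L ≤ h), bb G Q h K / q ^ #K :=
    (sum_filter_add_sum_filter_not _ _ _).symm
  have herase : ∑ K ∈ H'.powerset, bb G Q h K / q ^ #K
      = 1 + ∑ K ∈ H'.powerset.erase ∅, bb G Q h K / q ^ #K := by
    rw [← add_sum_erase _ _ (empty_mem_powerset H')]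
    simp [bb_empty]
  have hB : ∑ K ∈ H'.powerset.filter (fun L => ¬ 2 * #L ≤ h), bb G Q h K / q ^ #K ≤ 1 / 2 := by
    calc ∑ K ∈ H'.powerset.filter (fun L => ¬ 2 * #L ≤ h), bb G Q h K / q ^ #K
        ≤ ∑ K ∈ H'.powerset.filter (fun L => ¬ 2 * #L ≤ h), (1 / 2 : ℝ) ^ (h + 1) := by
          apply sum_le_sum
          intro K hK
          rw [mem_filter, mem_powerset] at hK
          have hK0 : K.Nonempty := by
            rw [← card_pos]; omega
          have h1 := bb_le hstab (hK.1.trans hH') hK0 hq.le Q h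
          have h2 : bb G Q h K / q ^ #K ≤ (1 / 4) ^ #K := by
            rw [div_le_iff₀ (by positivity)]
            linarith
          refine h2.trans ?_
          rw [show (1 / 4 : ℝ) = (1 / 2) ^ 2 by norm_num, ← pow_mul]
          apply pow_le_pow_of_le_one (by norm_num) (by norm_num)
          omega
      _ ≤ ∑ K ∈ H'.powerset, (1 / 2 : ℝ) ^ (h + 1) := by
          apply sum_le_sum_of_subset_of_nonneg (filter_subset _ _)
          intro _ _ _
          positivity
      _ = 1 / 2 := by
          rw [sum_const, card_powerset, nsmul_eq_mul, pow_succ]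
          push_cast
          rw [← mul_assoc, ← mul_pow]
          norm_num
  linarith

/-- **The orbit theorem.** -/
theorem orbit_bound {H : Finset E} {q : ℝ} (hq : 0 < q)
    (hstab : ∀ K ⊆ H, (#{g : G | g • K = K} : ℝ) ≤ 2 * q ^ #K * Fintype.card G) (k : ℕ) :
    ∀ (m : ℕ) (K Q : Finset E), K ⊆ H → #K ≤ 2 ^ k * m → #Q ≤ m →
      (cnt G Q K : ℝ) ≤ Fintype.card G * ((4 + 32 * k) * q) ^ #Q * 4 ^ (m - #Q) := by
  induction k with
  | zero =>
    intro m K Q hK hKm hQm
    rw [pow_zero, one_mul] at hKm
    have hG : (0 : ℝ) < Fintype.card G := by exact_mod_cast Fintype.card_pos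
    rcases Nat.eq_zero_or_pos m with hm | hm
    · have hQ0 : #Q = 0 := by omega
      rw [hQ0, hm]
      simp only [pow_zero, mul_one, Nat.sub_zero]
      have : cnt G Q K ≤ Fintype.card G := by
        unfold cnt
        exact card_le_univ _
      exact_mod_cast this
    have h1 : (cnt G Q K : ℝ) = ∑ K' ∈ K.powersetCard #Q, (#{g : G | g • Q = K'} : ℝ) := by
      have : cnt G Q K = ∑ K' ∈ K.powersetCard #Q, #{g : G | g • Q = K'} := by
        unfold cnt
        rw [card_eq_sum_card_fiberwise (f := fun g : G => g • Q) (t := K.powersetCard #Q)]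
        · apply sum_congr rfl
          intro K' hK'
          rw [mem_powersetCard] at hK'
          congr 1
          ext g
          simp only [mem_filter, mem_univ, true_and]
          constructor
          · exact fun h => h.2
          · intro h
            exact ⟨by rw [h]; exact hK'.1, h⟩
        · intro g hg
          simp only [coe_filter, mem_univ, true_and, Set.mem_ofPred_eq] at hg
          rw [mem_coe, mem_powersetCard]
          exact ⟨hg, card_smul_finset _ _⟩
      rw [this]
      push_cast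
      rfl
    have h2 : (cnt G Q K : ℝ) ≤ ((#K).choose #Q : ℝ) * (2 * q ^ #Q * Fintype.card G) := by
      rw [h1]
      calc ∑ K' ∈ K.powersetCard #Q, (#{g : G | g • Q = K'} : ℝ)
          ≤ ∑ K' ∈ K.powersetCard #Q, 2 * q ^ #Q * (Fintype.card G : ℝ) := by
            apply sum_le_sum
            intro K' hK'
            rw [mem_powersetCard] at hK'
            have := card_map_le hstab (hK'.1.trans hK) hq.le Q
            rwa [hK'.2] at this
        _ = _ := by rw [sum_const, card_powersetCard, nsmul_eq_mul]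
    refine h2.trans ?_
    have h3 : ((#K).choose #Q : ℝ) * 2 ≤ 4 ^ m := by
      have h4 : (#K).choose #Q ≤ 2 ^ m :=
        (Nat.choose_le_two_pow _ _).trans (Nat.pow_le_pow_right (by norm_num) hKm)
      have h5 : ((#K).choose #Q : ℝ) ≤ 2 ^ m := by exact_mod_cast h4
      have h6 : (2 : ℝ) ≤ 2 ^ m := by
        calc (2 : ℝ) = 2 ^ 1 := by norm_num
          _ ≤ 2 ^ m := pow_le_pow_right₀ (by norm_num) hm
      calc ((#K).choose #Q : ℝ) * 2 ≤ 2 ^ m * 2 ^ m := by gcongr
        _ = 4 ^ m := by rw [← mul_pow]; norm_num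
    have h7 : (4 : ℝ) ^ #Q * 4 ^ (m - #Q) = 4 ^ m := by
      rw [← pow_add]; congr 1; omega
    calc ((#K).choose #Q : ℝ) * (2 * q ^ #Q * Fintype.card G)
        = (((#K).choose #Q : ℝ) * 2) * (q ^ #Q * Fintype.card G) := by ring
      _ ≤ 4 ^ m * (q ^ #Q * Fintype.card G) := by gcongr
      _ = Fintype.card G * ((4 + 32 * (0 : ℕ)) * q) ^ #Q * 4 ^ (m - #Q) := by
        rw [← h7, Nat.cast_zero, mul_zero, add_zero, mul_pow]
        ring
  | succ k ih =>
    intro m K Q hK hKm hQm
    obtain ⟨K', hK', hcard, hle⟩ := halving hq hstab Q hK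
    refine hle.trans ?_
    have hK'm : #K' ≤ 2 ^ k * m := by
      rw [pow_succ] at hKm
      nlinarith
    have h1 : ∀ s ∈ range (#Q + 1), (8 * q) ^ s * (NN G Q s K' : ℝ) ≤
        ∑ A ∈ Q.powersetCard s, Fintype.card G * 4 ^ (m - #Q) *
          ((32 * q) ^ #A * ((4 + 32 * k) * q) ^ (#Q - #A)) := by
      intro s hs
      rw [mem_range] at hs
      unfold NN
      push_cast
      rw [mul_sum]
      apply sum_le_sum
      intro A hA
      rw [mem_powersetCard] at hA
      have h2 : #(Q \ A) = #Q - #A := card_sdiff_of_subset hA.1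
      have h3 := ih m K' (Q \ A) (hK'.trans hK) hK'm (by omega)
      have h4 : (4 : ℝ) ^ (m - #(Q \ A)) = 4 ^ (m - #Q) * 4 ^ #A := by
        rw [← pow_add]; congr 1
        have := card_le_card hA.1
        omega
      calc (8 * q) ^ s * (cnt G (Q \ A) K' : ℝ)
          ≤ (8 * q) ^ s * (Fintype.card G * ((4 + 32 * k) * q) ^ #(Q \ A) * 4 ^ (m - #(Q \ A))) := by
            gcongr
        _ = Fintype.card G * 4 ^ (m - #Q) * ((32 * q) ^ #A * ((4 + 32 * k) * q) ^ (#Q - #A)) := by
          rw [h4, h2, ← hA.2, show (32 : ℝ) * q = (8 * q) * 4 by ring, mul_pow (8 * q) 4]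
          ring
    calc ∑ s ∈ range (#Q + 1), (8 * q) ^ s * (NN G Q s K' : ℝ)
        ≤ ∑ s ∈ range (#Q + 1), ∑ A ∈ Q.powersetCard s, Fintype.card G * 4 ^ (m - #Q) *
          ((32 * q) ^ #A * ((4 + 32 * k) * q) ^ (#Q - #A)) := sum_le_sum h1
      _ = ∑ A ∈ Q.powerset, Fintype.card G * 4 ^ (m - #Q) *
          ((32 * q) ^ #A * ((4 + 32 * k) * q) ^ (#Q - #A)) := by
          rw [sum_powerset]
      _ = Fintype.card G * 4 ^ (m - #Q) * (32 * q + (4 + 32 * k) * q) ^ #Q := by
          rw [← mul_sum, sum_pow_mul_eq_add_pow]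
      _ = Fintype.card G * ((4 + 32 * (k + 1 : ℕ)) * q) ^ #Q * 4 ^ (m - #Q) := by
          push_cast
          rw [show 32 * q + (4 + 32 * (k : ℝ)) * q = (4 + 32 * (k + 1)) * q by ring]
          ring

end P064
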