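import Mathlib

/-!
# P064: product measures on finite sets and the spread lemma
-/

open Finset

namespace P064

variable {E : Type*} [DecidableEq E]

/-- expectation of `f W` for a `p`-random subset `W` of `X`. -/
noncomputable def ex (p : ℝ) (X : Finset E) (f : Finset E → ℝ) : ℝ :=
  ∑ W ∈ X.powerset, p ^ #W * (1 - p) ^ (#X - #W) * f W

theorem ex_insert (p : ℝ) {X : Finset E} {x : E} (hx : x ∉ X) (f : Finset E → ℝ) :
    ex p (insert x X) f = (1 - p) * ex p X f + p * ex p X (fun W => f (insert x W)) := by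
  unfold ex
  rw [sum_powerset_insert hx, mul_sum, mul_sum]
  congr 1
  · apply sum_congr rfl
    intro W hW
    rw [mem_powerset] at hW
    have h1 : #(insert x X) - #W = (#X - #W) + 1 := by
      rw [card_insert_of_notMem hx]
      have := card_le_card hW
      omega
    rw [h1, pow_succ]
    ring
  · apply sum_congr rfl
    intro W hW
    rw [mem_powerset] at hW
    have hxW : x ∉ W := fun h => hx (hW h)
    have h1 : #(insert x X) - #(insert x W) = #X - #W := by
      rw [card_insert_of_notMem hx, card_insert_of_notMem hxW]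
      omega
    rw [h1, card_insert_of_notMem hxW, pow_succ]
    ring

theorem ex_add (p : ℝ) (X : Finset E) (f g : Finset E → ℝ) :
    ex p X (fun W => f W + g W) = ex p X f + ex p X g := by
  unfold ex
  rw [← sum_add_distrib]
  exact sum_congr rfl (fun _ _ => by ring)

theorem ex_mul (p : ℝ) (X : Finset E) (c : ℝ) (f : Finset E → ℝ) :
    ex p X (fun W => c * f W) = c * ex p X f := by
  unfold ex
  rw [mul_sum]
  exact sum_congr rfl (fun _ _ => by ring)

theorem ex_const (p : ℝ) (X : Finset E) (c : ℝ) : ex p X (fun _ => c) = c := by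
  induction X using Finset.induction with
  | empty => simp [ex]
  | insert x X hx ih => rw [ex_insert p hx, ih]; ring

theorem ex_mono {p : ℝ} (hp0 : 0 ≤ p) (hp1 : p ≤ 1) (X : Finset E) {f g : Finset E → ℝ}
    (h : ∀ W ⊆ X, f W ≤ g W) : ex p X f ≤ ex p X g := by
  unfold ex
  apply sum_le_sum
  intro W hW
  rw [mem_powerset] at hW
  have : 0 ≤ 1 - p := by linarith
  exact mul_le_mul_of_nonneg_left (h W hW) (by positivity)

/-- the union of independent random sets -/
theorem ex_union (p r : ℝ) (X : Finset E) (f : Finset E → ℝ) :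
    ex p X (fun A => ex r X (fun B => f (A ∪ B))) = ex (p + r - p * r) X f := by
  induction X using Finset.induction generalizing f with
  | empty => simp [ex]
  | insert x X hx ih =>
    rw [ex_insert p hx, ex_insert (p + r - p * r) hx, ← ih f, ← ih (fun W => f (insert x W))]
    have h1 : (fun A => ex r (insert x X) (fun B => f (A ∪ B)))
        = fun A => (1 - r) * ex r X (fun B => f (A ∪ B))
          + r * ex r X (fun B => f (insert x (A ∪ B))) := by
      funext A
      rw [ex_insert r hx]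
      simp only [union_insert]
    have h2 : (fun A => ex r (insert x X) (fun B => f (insert x A ∪ B)))
        = fun A => ex r X (fun B => f (insert x (A ∪ B))) := by
      funext A
      rw [ex_insert r hx]
      simp only [union_insert, insert_union, insert_idem]
      ring
    rw [h1, h2, ex_add, ex_mul, ex_mul]
    ring

theorem ex_mono_p {p p' : ℝ} (hp0 : 0 ≤ p) (hpp : p ≤ p') (hp1 : p' ≤ 1) (X : Finset E)
    {f : Finset E → ℝ} (hf : ∀ A B, A ⊆ B → f A ≤ f B) : ex p X f ≤ ex p' X f := by
  rcases eq_or_lt_of_le hpp with h | h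
  · rw [h]
  · have hp : p < 1 := lt_of_lt_of_le h hp1
    have hp' : 0 < 1 - p := by linarith
    have h1 : p' = p + (p' - p) / (1 - p) - p * ((p' - p) / (1 - p)) := by
      field_simp
      ring
    rw [h1, ← ex_union]
    apply ex_mono hp0 hp.le
    intro A _
    have h2 := ex_const ((p' - p) / (1 - p)) X (f A)
    calc f A = ex ((p' - p) / (1 - p)) X (fun _ => f A) := h2.symm
      _ ≤ _ := by
        apply ex_mono
        · apply div_nonneg <;> linarith
        · rw [div_le_one hp']; linarith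
        · intro B _
          exact hf _ _ subset_union_left

section frag

variable {ι : Type*} [DecidableEq ι]

theorem exists_frag (A : Finset ι) (S : ι → Finset E) (W : Finset E) (i : ι) :
    ∃ T : Finset E, (i ∈ A → (∃ j ∈ A, T = S j \ W) ∧ T ⊆ S i ∧
      ∀ j ∈ A, S j ⊆ W ∪ S i → #T ≤ #(S j \ W)) := by
  by_cases hi : i ∈ A
  · obtain ⟨j, hj, hmin⟩ := exists_min_image (A.filter (fun j => S j ⊆ W ∪ S i))
      (fun j => #(S j \ W)) ⟨i, by simp [hi]⟩
    rw [mem_filter] at hj
    refine ⟨S j \ W, fun _ => ⟨⟨j, hj.1, rfl⟩, ?_, ?_⟩⟩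
    · intro x hx
      rw [mem_sdiff] at hx
      have := hj.2 hx.1
      rw [mem_union] at this
      exact this.resolve_left hx.2
    · intro k hk hk2
      exact hmin k (by rw [mem_filter]; exact ⟨hk, hk2⟩)
  · exact ⟨∅, fun h => absurd h hi⟩

/-- the minimum fragment -/
noncomputable def frag (A : Finset ι) (S : ι → Finset E) (W : Finset E) (i : ι) : Finset E :=
  (exists_frag A S W i).choose

theorem frag_spec (A : Finset ι) (S : ι → Finset E) (W : Finset E) {i : ι} (hi : i ∈ A) :
    (∃ j ∈ A, frag A S W i = S j \ W) ∧ frag A S W i ⊆ S i ∧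
      ∀ j ∈ A, S j ⊆ W ∪ S i → #(frag A S W i) ≤ #(S j \ W) :=
  (exists_frag A S W i).choose_spec hi

variable [Fintype E]

theorem count_frag (A : Finset ι) (S : ι → Finset E) {ρ M : ℝ} (hρ : 0 ≤ ρ) (hM : 0 ≤ M)
    (hS : ∀ T, (#{i ∈ A | T ⊆ S i} : ℝ) ≤ ρ ^ #T * M) {l : ℕ} (hl : ∀ i ∈ A, #(S i) ≤ l)
    (t : ℕ) (Z : Finset E) :
    (#{x ∈ A ×ˢ (univ : Finset (Finset E)) | #(frag A S x.2 x.1) = t ∧
      x.2 ∪ frag A S x.2 x.1 = Z} : ℝ) ≤ (l.choose t : ℝ) * (ρ ^ t * M) := by
  rcases (filter (fun x : ι × Finset E => #(frag A S x.2 x.1) = t ∧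
      x.2 ∪ frag A S x.2 x.1 = Z) (A ×ˢ (univ : Finset (Finset E)))).eq_empty_or_nonempty with
    h | ⟨⟨i₀, W₀⟩, h₀⟩
  · rw [h]
    simp only [card_empty, Nat.cast_zero]
    positivity
  · simp only [mem_filter, mem_product, mem_univ, and_true] at h₀
    obtain ⟨⟨j₀, hj₀, hT₀⟩, -, -⟩ := frag_spec A S W₀ h₀.1
    have hj₀Z : S j₀ ⊆ Z := by
      rw [← h₀.2.2, hT₀]
      intro x hx
      by_cases hxW : x ∈ W₀
      · exact mem_union_left _ hxW
      · exact mem_union_right _ (mem_sdiff.2 ⟨hx, hxW⟩)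
    have key : #(filter (fun x : ι × Finset E => #(frag A S x.2 x.1) = t ∧
        x.2 ∪ frag A S x.2 x.1 = Z) (A ×ˢ (univ : Finset (Finset E)))) ≤
        #((S j₀).powersetCard t |>.sigma fun T => A.filter (fun i => T ⊆ S i)) := by
      apply card_le_card_of_injOn (fun x => ⟨frag A S x.2 x.1, x.1⟩)
      · rintro ⟨i, W⟩ hx
        simp only [coe_filter, mem_product, mem_univ, and_true, Set.mem_ofPred_eq] at hx
        obtain ⟨hi, ht, hZ⟩ := hx
        obtain ⟨⟨j, hj, hT⟩, hsub, hmin⟩ := frag_spec A S W hi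
        simp only [coe_sigma, Set.mem_sigma_iff, mem_coe, mem_powersetCard, mem_filter]
        refine ⟨⟨?_, ht⟩, hi, hsub⟩
        have h1 : S j₀ \ W ⊆ frag A S W i := by
          intro x hx
          rw [mem_sdiff] at hx
          have := hj₀Z hx.1
          rw [← hZ, mem_union] at this
          exact this.resolve_left hx.2
        have h2 : #(frag A S W i) ≤ #(S j₀ \ W) := by
          apply hmin j₀ hj₀
          refine hj₀Z.trans ?_
          rw [← hZ]
          exact union_subset_union (Subset.refl _) hsub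
        have h3 : S j₀ \ W = frag A S W i := eq_of_subset_of_card_le h1 h2
        rw [← h3]
        exact sdiff_subset
      · rintro ⟨i, W⟩ hx ⟨i', W'⟩ hx' heq
        simp only [coe_filter, mem_product, mem_univ, and_true, Set.mem_ofPred_eq] at hx hx'
        simp only [Sigma.mk.injEq, heq_eq_eq] at heq
        obtain ⟨h1, h2⟩ := heq
        subst h2
        have hdis : ∀ W, W ∪ frag A S W i = Z → W = Z \ frag A S W i := by
          intro W hW
          obtain ⟨⟨j, hj, hT⟩, -, -⟩ := frag_spec A S W hx.1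
          rw [← hW]
          ext x
          rw [mem_sdiff, mem_union, hT, mem_sdiff]
          tauto
        have h3 := hdis W hx.2.2
        have h4 := hdis W' hx'.2.2
        rw [h3, h4, h1]
    rw [card_sigma] at key
    have key' : (#(filter (fun x : ι × Finset E => #(frag A S x.2 x.1) = t ∧
        x.2 ∪ frag A S x.2 x.1 = Z) (A ×ˢ (univ : Finset (Finset E)))) : ℝ) ≤
        ∑ T ∈ (S j₀).powersetCard t, (#(A.filter (fun i => T ⊆ S i)) : ℝ) := by
      exact_mod_cast key
    refine key'.trans ?_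
    calc ∑ T ∈ (S j₀).powersetCard t, (#(A.filter (fun i => T ⊆ S i)) : ℝ)
        ≤ ∑ T ∈ (S j₀).powersetCard t, ρ ^ t * M := by
          apply sum_le_sum
          intro T hT
          rw [mem_powersetCard] at hT
          have := hS T
          rwa [hT.2] at this
      _ = ((#(S j₀)).choose t : ℝ) * (ρ ^ t * M) := by
          rw [sum_const, card_powersetCard, nsmul_eq_mul]
      _ ≤ (l.choose t : ℝ) * (ρ ^ t * M) := by
          apply mul_le_mul_of_nonneg_right _ (by positivity)
          exact_mod_cast Nat.choose_le_choose t (hl j₀ hj₀)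

/-- the expected number of `i` whose minimum fragment has size `t`. -/
theorem ex_frag_eq (A : Finset ι) (S : ι → Finset E) {ρ M p : ℝ} (hρ : 0 < ρ) (hM : 0 ≤ M)
    (hS : ∀ T, (#{i ∈ A | T ⊆ S i} : ℝ) ≤ ρ ^ #T * M) {l : ℕ} (hl : ∀ i ∈ A, #(S i) ≤ l)
    (hp : p = 16 * ρ) (hp1 : p ≤ 1) (t : ℕ) :
    ex p univ (fun W => (#{i ∈ A | #(frag A S W i) = t} : ℝ))
      ≤ (l.choose t : ℝ) * (1 / 16) ^ t * M := by
  have hp0 : 0 < p := by rw [hp]; positivity
  have h1p : 0 ≤ 1 - p := by linarith
  set n := #(univ : Finset E) with hn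
  -- multiply by `p ^ t`
  have h1 : ex p univ (fun W => (#{i ∈ A | #(frag A S W i) = t} : ℝ)) * p ^ t
      ≤ (l.choose t : ℝ) * (ρ ^ t * M) := by
    have e1 : ex p univ (fun W => (#{i ∈ A | #(frag A S W i) = t} : ℝ)) * p ^ t
        = ∑ x ∈ (A ×ˢ (univ : Finset (Finset E))).filter (fun x => #(frag A S x.2 x.1) = t),
          p ^ #x.2 * (1 - p) ^ (n - #x.2) * p ^ t := by
      unfold ex
      rw [sum_filter, sum_product, sum_comm, sum_mul, powerset_univ]
      apply sum_congr rfl
      intro W _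
      simp only [card_filter]
      push_cast
      rw [mul_sum, sum_mul]
      apply sum_congr rfl
      intro i _
      split_ifs
      · ring
      · ring
    rw [e1]
    calc ∑ x ∈ (A ×ˢ (univ : Finset (Finset E))).filter (fun x => #(frag A S x.2 x.1) = t),
          p ^ #x.2 * (1 - p) ^ (n - #x.2) * p ^ t
        ≤ ∑ x ∈ (A ×ˢ (univ : Finset (Finset E))).filter (fun x => #(frag A S x.2 x.1) = t),
          p ^ #(x.2 ∪ frag A S x.2 x.1) * (1 - p) ^ (n - #(x.2 ∪ frag A S x.2 x.1)) := by
          apply sum_le_sum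
          rintro ⟨i, W⟩ hx
          simp only [mem_filter, mem_product, mem_univ, and_true] at hx ⊢
          obtain ⟨⟨j, hj, hT⟩, -, -⟩ := frag_spec A S W hx.1
          have hd : #(W ∪ frag A S W i) = #W + t := by
            rw [card_union_of_disjoint, hx.2]
            rw [hT]
            exact disjoint_sdiff
          rw [hd, pow_add]
          have h2 : (1 - p) ^ (n - #W) ≤ (1 - p) ^ (n - (#W + t)) :=
            pow_le_pow_of_le_one h1p (by linarith) (by omega)
          calc p ^ #W * (1 - p) ^ (n - #W) * p ^ t = (p ^ #W * p ^ t) * (1 - p) ^ (n - #W) := by ring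
            _ ≤ (p ^ #W * p ^ t) * (1 - p) ^ (n - (#W + t)) := by gcongr
      _ = ∑ Z : Finset E, ∑ x ∈ ((A ×ˢ (univ : Finset (Finset E))).filter
            (fun x => #(frag A S x.2 x.1) = t)).filter (fun x => x.2 ∪ frag A S x.2 x.1 = Z),
          p ^ #(x.2 ∪ frag A S x.2 x.1) * (1 - p) ^ (n - #(x.2 ∪ frag A S x.2 x.1)) :=
          (sum_fiberwise _ _ _).symm
      _ ≤ ∑ Z : Finset E, p ^ #Z * (1 - p) ^ (n - #Z) * ((l.choose t : ℝ) * (ρ ^ t * M)) := by
          apply sum_le_sum
          intro Z _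
          rw [filter_filter]
          have h3 := count_frag A S hρ.le hM hS hl t Z
          calc ∑ x ∈ (A ×ˢ (univ : Finset (Finset E))).filter
                (fun x => #(frag A S x.2 x.1) = t ∧ x.2 ∪ frag A S x.2 x.1 = Z),
                p ^ #(x.2 ∪ frag A S x.2 x.1) * (1 - p) ^ (n - #(x.2 ∪ frag A S x.2 x.1))
              = ∑ x ∈ (A ×ˢ (univ : Finset (Finset E))).filter
                (fun x => #(frag A S x.2 x.1) = t ∧ x.2 ∪ frag A S x.2 x.1 = Z),
                p ^ #Z * (1 - p) ^ (n - #Z) := by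
                apply sum_congr rfl
                intro x hx
                rw [mem_filter] at hx
                rw [hx.2.2]
            _ = (#{x ∈ A ×ˢ (univ : Finset (Finset E)) | #(frag A S x.2 x.1) = t ∧
                x.2 ∪ frag A S x.2 x.1 = Z} : ℝ) * (p ^ #Z * (1 - p) ^ (n - #Z)) := by
                rw [sum_const, nsmul_eq_mul]
            _ ≤ ((l.choose t : ℝ) * (ρ ^ t * M)) * (p ^ #Z * (1 - p) ^ (n - #Z)) := by
                apply mul_le_mul_of_nonneg_right h3
                positivity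
            _ = _ := by ring
      _ = (l.choose t : ℝ) * (ρ ^ t * M) := by
          have h4 := ex_const p (univ : Finset E) ((l.choose t : ℝ) * (ρ ^ t * M))
          unfold ex at h4
          rw [powerset_univ] at h4
          exact h4
  have h2 : (l.choose t : ℝ) * (ρ ^ t * M) = ((l.choose t : ℝ) * (1 / 16) ^ t * M) * p ^ t := by
    rw [hp, mul_pow, one_div, inv_pow]
    field_simp
  rw [h2] at h1
  exact le_of_mul_le_mul_right h1 (by positivity)

theorem ex_frag_ge (A : Finset ι) (S : ι → Finset E) {ρ M p : ℝ} (hρ : 0 < ρ) (hM : 0 ≤ M)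
    (hS : ∀ T, (#{i ∈ A | T ⊆ S i} : ℝ) ≤ ρ ^ #T * M) {r : ℕ} (hl : ∀ i ∈ A, #(S i) < 2 ^ (r + 1))
    (hp : p = 16 * ρ) (hp1 : p ≤ 1) :
    ex p univ (fun W => (#{i ∈ A | 2 ^ r ≤ #(frag A S W i)} : ℝ))
      ≤ (1 / 2) ^ (r + 3) * M := by
  have hp0 : 0 < p := by rw [hp]; positivity
  have hl' : ∀ i ∈ A, #(S i) ≤ 2 ^ (r + 1) - 1 := by
    intro i hi
    have := hl i hi
    omega
  have h1 : ∀ W : Finset E, (#{i ∈ A | 2 ^ r ≤ #(frag A S W i)} : ℝ)
      = ∑ t ∈ Ico (2 ^ r) (2 ^ (r + 1)), (#{i ∈ A | #(frag A S W i) = t} : ℝ) := by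
    intro W
    have : #{i ∈ A | 2 ^ r ≤ #(frag A S W i)}
        = ∑ t ∈ Ico (2 ^ r) (2 ^ (r + 1)), #{i ∈ A | #(frag A S W i) = t} := by
      rw [card_eq_sum_card_fiberwise (f := fun i => #(frag A S W i))
        (t := Ico (2 ^ r) (2 ^ (r + 1)))]
      · apply sum_congr rfl
        intro t ht
        rw [mem_Ico] at ht
        congr 1
        rw [filter_filter]
        apply filter_congr
        intro i _
        constructor
        · exact fun h => h.2
        · intro h
          exact ⟨by omega, h⟩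
      · intro i hi
        simp only [coe_filter, Set.mem_ofPred_eq] at hi
        simp only [coe_Ico, Set.mem_Ico]
        refine ⟨hi.2, ?_⟩
        obtain ⟨-, hsub, -⟩ := frag_spec A S W hi.1
        exact lt_of_le_of_lt (card_le_card hsub) (hl i hi.1)
    rw [this]
    push_cast
    rfl
  have h2 : ex p univ (fun W => (#{i ∈ A | 2 ^ r ≤ #(frag A S W i)} : ℝ))
      = ∑ t ∈ Ico (2 ^ r) (2 ^ (r + 1)),
        ex p univ (fun W => (#{i ∈ A | #(frag A S W i) = t} : ℝ)) := by
    unfold ex
    rw [sum_comm]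
    apply sum_congr rfl
    intro W _
    simp only [h1, mul_sum]
  rw [h2]
  calc ∑ t ∈ Ico (2 ^ r) (2 ^ (r + 1)),
        ex p univ (fun W => (#{i ∈ A | #(frag A S W i) = t} : ℝ))
      ≤ ∑ t ∈ Ico (2 ^ r) (2 ^ (r + 1)),
        ((2 ^ (r + 1) - 1).choose t : ℝ) * (1 / 16) ^ (2 ^ r) * M := by
        apply sum_le_sum
        intro t ht
        rw [mem_Ico] at ht
        refine (ex_frag_eq A S hρ hM hS hl' hp hp1 t).trans ?_
        have : (1 / 16 : ℝ) ^ t ≤ (1 / 16) ^ (2 ^ r) :=
          pow_le_pow_of_le_one (by norm_num) (by norm_num) ht.1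
        gcongr
    _ = (∑ t ∈ Ico (2 ^ r) (2 ^ (r + 1)), ((2 ^ (r + 1) - 1).choose t : ℝ))
        * ((1 / 16) ^ (2 ^ r) * M) := by
        rw [sum_mul]
        exact sum_congr rfl (fun _ _ => by ring)
    _ ≤ (2 : ℝ) ^ (2 ^ (r + 1) - 1) * ((1 / 16) ^ (2 ^ r) * M) := by
        apply mul_le_mul_of_nonneg_right _ (by positivity)
        have h3 : ∑ t ∈ Ico (2 ^ r) (2 ^ (r + 1)), (2 ^ (r + 1) - 1).choose t
            ≤ 2 ^ (2 ^ (r + 1) - 1) := by
          rw [← Nat.sum_range_choose (2 ^ (r + 1) - 1)]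
          apply sum_le_sum_of_subset
          intro t ht
          rw [mem_Ico] at ht
          rw [mem_range]
          have : 0 < 2 ^ (r + 1) := by positivity
          omega
        exact_mod_cast h3
    _ ≤ (1 / 2) ^ (r + 3) * M := by
        rw [← mul_assoc]
        apply mul_le_mul_of_nonneg_right _ hM
        have h4 : (1 / 16 : ℝ) ^ (2 ^ r) = (1 / 2) ^ (4 * 2 ^ r) := by
          rw [pow_mul]; norm_num
        have h5 : (1 / 2 : ℝ) ^ (4 * 2 ^ r)
            = (1 / 2) ^ (2 ^ (r + 1) - 1) * (1 / 2) ^ (2 ^ (r + 1) + 1) := by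
          rw [← pow_add]; congr 1
          have : 0 < 2 ^ (r + 1) := by positivity
          have : 2 ^ (r + 1) = 2 * 2 ^ r := by rw [pow_succ]; ring
          omega
        rw [h4, h5, ← mul_assoc, ← mul_pow]
        norm_num
        have h6 : r + 3 ≤ 2 ^ (r + 1) + 1 := by
          have : r + 1 < 2 ^ (r + 1) := Nat.lt_two_pow_self
          omega
        have := pow_le_pow_of_le_one (show (0 : ℝ) ≤ 1 / 2 by norm_num) (by norm_num) h6
        simpa using this

/-- the density after `r` rounds -/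
noncomputable def dens (p : ℝ) : ℕ → ℝ
  | 0 => 0
  | r + 1 => p + dens p r - p * dens p r

theorem dens_mem {p : ℝ} (hp0 : 0 ≤ p) (hp1 : p ≤ 1) (r : ℕ) : 0 ≤ dens p r ∧ dens p r ≤ 1 := by
  induction r with
  | zero => simp [dens]
  | succ r ih =>
    unfold dens
    constructor
    · nlinarith
    · nlinarith

theorem dens_le {p : ℝ} (hp0 : 0 ≤ p) (hp1 : p ≤ 1) (r : ℕ) : dens p r ≤ r * p := by
  induction r with
  | zero => simp [dens]
  | succ r ih =>
    have := dens_mem hp0 hp1 r
    unfold dens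
    push_cast
    nlinarith

open Classical in
theorem spread_aux {ρ M p : ℝ} (hρ : 0 < ρ) (hM : 0 < M) (hp : p = 16 * ρ) (hp1 : p ≤ 1)
    (r : ℕ) : ∀ (A : Finset ι) (S : ι → Finset E), (∀ i ∈ A, #(S i) < 2 ^ r) →
      (∀ T, (#{i ∈ A | T ⊆ S i} : ℝ) ≤ ρ ^ #T * M) →
      (#A : ℝ) / M - (1 - (1 / 2) ^ r) / 4 ≤
        ex (dens p r) univ (fun W => if ∃ i ∈ A, S i ⊆ W then 1 else 0) := by
  induction r with
  | zero =>
    intro A S hl hS
    have h0 := hS ∅
    simp only [empty_subset, filter_true, card_empty, pow_zero, one_mul] at h0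
    have h1 : (#A : ℝ) / M ≤ 1 := by rw [div_le_one hM]; exact h0
    rcases A.eq_empty_or_nonempty with hA | ⟨i, hi⟩
    · subst hA
      simp [ex_const]
    · have h2 : (fun W : Finset E => if ∃ i ∈ A, S i ⊆ W then (1 : ℝ) else 0) = fun _ => 1 := by
        funext W
        rw [if_pos]
        refine ⟨i, hi, ?_⟩
        have := hl i hi
        have h3 : S i = ∅ := by rw [← card_eq_zero]; simpa using this
        rw [h3]
        exact empty_subset _
      rw [h2, ex_const]
      simp only [pow_zero, sub_self, zero_div, sub_zero]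
      exact h1
  | succ r ih =>
    intro A S hl hS
    have hp0 : 0 < p := by rw [hp]; positivity
    have hd := dens_mem hp0.le hp1 r
    show _ ≤ ex (p + dens p r - p * dens p r) univ _
    rw [← ex_union]
    have h1 : ∀ W : Finset E, (#(A.filter (fun i => #(frag A S W i) < 2 ^ r)) : ℝ) / M
        - (1 - (1 / 2) ^ r) / 4 ≤
        ex (dens p r) univ (fun B => if ∃ i ∈ A, S i ⊆ W ∪ B then 1 else 0) := by
      intro W
      refine (ih (A.filter (fun i => #(frag A S W i) < 2 ^ r)) (fun i => frag A S W i) ?_ ?_).trans ?_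
      · intro i hi
        rw [mem_filter] at hi
        exact hi.2
      · intro T
        refine le_trans ?_ (hS T)
        have : #((A.filter (fun i => #(frag A S W i) < 2 ^ r)).filter
            (fun i => T ⊆ frag A S W i)) ≤ #(A.filter (fun i => T ⊆ S i)) := by
          apply card_le_card
          intro i hi
          rw [mem_filter, mem_filter] at hi
          rw [mem_filter]
          exact ⟨hi.1.1, hi.2.trans (frag_spec A S W hi.1.1).2.1⟩
        exact_mod_cast this
      · apply ex_mono hd.1 hd.2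
        intro B _
        split_ifs with h2 h3 h3
        · exact le_refl _
        · exfalso
          apply h3
          obtain ⟨i, hi, hB⟩ := h2
          rw [mem_filter] at hi
          obtain ⟨⟨j, hj, hT⟩, -, -⟩ := frag_spec A S W hi.1
          refine ⟨j, hj, ?_⟩
          rw [hT] at hB
          intro x hx
          rw [mem_union]
          by_cases hxW : x ∈ W
          · exact Or.inl hxW
          · exact Or.inr (hB (mem_sdiff.2 ⟨hx, hxW⟩))
        · norm_num
        · exact le_refl _
    have h2 : ∀ W : Finset E, (#(A.filter (fun i => #(frag A S W i) < 2 ^ r)) : ℝ)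
        = #A - #(A.filter (fun i => 2 ^ r ≤ #(frag A S W i))) := by
      intro W
      have := card_filter_add_card_filter_not (s := A) (fun i => #(frag A S W i) < 2 ^ r)
      simp only [not_lt] at this
      rw [← this]
      push_cast
      ring
    have h3 : ex p univ (fun W => ((#(A.filter (fun i => #(frag A S W i) < 2 ^ r)) : ℝ) / M
        - (1 - (1 / 2) ^ r) / 4)) ≤
        ex p univ (fun W => ex (dens p r) univ
          (fun B => if ∃ i ∈ A, S i ⊆ W ∪ B then 1 else 0)) :=
      ex_mono hp0.le hp1 _ (fun W _ => h1 W)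
    refine le_trans ?_ h3
    have h4 : ex p univ (fun W => ((#(A.filter (fun i => #(frag A S W i) < 2 ^ r)) : ℝ) / M
        - (1 - (1 / 2) ^ r) / 4))
        = (#A : ℝ) / M - (1 - (1 / 2) ^ r) / 4
          - 1 / M * ex p univ (fun W => (#(A.filter (fun i => 2 ^ r ≤ #(frag A S W i))) : ℝ)) := by
      have e1 : (fun W : Finset E => ((#(A.filter (fun i => #(frag A S W i) < 2 ^ r)) : ℝ) / M
        - (1 - (1 / 2) ^ r) / 4)) = fun W => ((#A : ℝ) / M - (1 - (1 / 2) ^ r) / 4)
          + (-(1 / M)) * (#(A.filter (fun i => 2 ^ r ≤ #(frag A S W i))) : ℝ) := by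
        funext W
        rw [h2 W]
        ring
      rw [e1, ex_add, ex_const, ex_mul]
      ring
    rw [h4]
    have h5 := ex_frag_ge A S hρ hM.le hS hl hp hp1
    have h6 : 1 / M * ex p univ (fun W => (#(A.filter (fun i => 2 ^ r ≤ #(frag A S W i))) : ℝ))
        ≤ (1 / 2) ^ (r + 3) := by
      rw [div_mul_eq_mul_div, one_mul, div_le_iff₀ hM]
      exact h5
    have h7 : (1 / 2 : ℝ) ^ (r + 3) = (1 / 2) ^ r / 8 := by rw [pow_add]; norm_num; ring
    have h8 : (1 / 2 : ℝ) ^ (r + 1) = (1 / 2) ^ r / 2 := by rw [pow_add]; norm_num; ring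
    rw [h7] at h6
    rw [h8]
    linarith

open Classical in
/-- **The spread lemma.** -/
theorem spread_lemma {ρ : ℝ} (hρ : 0 < ρ) (A : Finset ι) (hA : A.Nonempty) (S : ι → Finset E)
    (r : ℕ) (hl : ∀ i ∈ A, #(S i) < 2 ^ r)
    (hS : ∀ T, (#{i ∈ A | T ⊆ S i} : ℝ) ≤ ρ ^ #T * #A) {p : ℝ} (hr : 16 * ρ * r ≤ p)
    (hr0 : 0 < r) (hp1 : p ≤ 1) :
    3 / 4 ≤ ex p univ (fun W => if ∃ i ∈ A, S i ⊆ W then 1 else 0) := by
  have hM : (0 : ℝ) < #A := by exact_mod_cast hA.card_pos
  have hr1 : (1 : ℝ) ≤ r := by exact_mod_cast hr0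
  have hle : 16 * ρ ≤ 1 := by nlinarith
  have h1 := spread_aux hρ hM rfl hle r A S hl hS
  rw [div_self hM.ne'] at h1
  have h2 := dens_mem (show 0 ≤ 16 * ρ by positivity) hle r
  have h3 := dens_le (show 0 ≤ 16 * ρ by positivity) hle r
  have h4 : dens (16 * ρ) r ≤ p := h3.trans (by linarith)
  have h5 := ex_mono_p h2.1 h4 hp1 (univ : Finset E)
    (f := fun W => if ∃ i ∈ A, S i ⊆ W then (1 : ℝ) else 0) (by
      intro B C hBC
      split_ifs with h6 h7 h7
      · exact le_refl _
      · exfalso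
        apply h7
        obtain ⟨i, hi, hB⟩ := h6
        exact ⟨i, hi, hB.trans hBC⟩
      · norm_num
      · exact le_refl _)
  have h6 : (0 : ℝ) ≤ (1 / 2) ^ r := by positivity
  linarith

end frag

end P064
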