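import Mathlib
import Vale.Agent.P064.Defs
import Vale.Agent.P064.Orbit
import Vale.Agent.P064.Spread

/-!
# P064: translation between random graphs on `Fin n` and random sets of pairs
-/

open Finset Pointwise

namespace P064

/-- pairs of distinct vertices -/
def Ed (n : ℕ) : Type := {e : Sym2 (Fin n) // ¬ e.IsDiag}

instance (n : ℕ) : Fintype (Ed n) := inferInstanceAs (Fintype {e : Sym2 (Fin n) // ¬ e.IsDiag})
instance (n : ℕ) : DecidableEq (Ed n) :=
  inferInstanceAs (DecidableEq {e : Sym2 (Fin n) // ¬ e.IsDiag})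

theorem card_Ed (n : ℕ) : Fintype.card (Ed n) = n.choose 2 := by
  have := @Sym2.card_subtype_not_diag (Fin n) _ _
  rw [Fintype.card_fin] at this
  exact this

theorem notDiag_map {n : ℕ} (g : Equiv.Perm (Fin n)) (e : Sym2 (Fin n)) (he : ¬ e.IsDiag) :
    ¬ (e.map g).IsDiag := by
  induction e using Sym2.ind with
  | _ x y =>
    rw [Sym2.map_mk, Sym2.mk_isDiag_iff] at *
    intro h
    exact he (g.injective h)

instance (n : ℕ) : MulAction (Equiv.Perm (Fin n)) (Ed n) where
  smul g e := ⟨e.1.map g, notDiag_map g e.1 e.2⟩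
  one_smul e := by
    apply Subtype.ext
    show Sym2.map (1 : Equiv.Perm (Fin n)) e.1 = e.1
    rw [Equiv.Perm.coe_one, Sym2.map_id]
    rfl
  mul_smul g h e := by
    apply Subtype.ext
    show Sym2.map (g * h : Equiv.Perm (Fin n)) e.1 = Sym2.map g (Sym2.map h e.1)
    rw [Sym2.map_map, Equiv.Perm.coe_mul]

theorem smul_val {n : ℕ} (g : Equiv.Perm (Fin n)) (e : Ed n) : (g • e).1 = e.1.map g := rfl

open Classical in
/-- the set of edges of a graph -/
noncomputable def edgesOf {n : ℕ} (G : SimpleGraph (Fin n)) : Finset (Ed n) :=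
  univ.filter (fun e => e.1 ∈ G.edgeSet)

theorem mem_edgesOf {n : ℕ} {G : SimpleGraph (Fin n)} {e : Ed n} :
    e ∈ edgesOf G ↔ e.1 ∈ G.edgeSet := by
  simp [edgesOf]

/-- the graph with a given set of edges -/
def graphOf {n : ℕ} (W : Finset (Ed n)) : SimpleGraph (Fin n) :=
  SimpleGraph.fromEdgeSet {e | ∃ h : ¬ e.IsDiag, (⟨e, h⟩ : Ed n) ∈ W}

theorem edgeSet_graphOf {n : ℕ} (W : Finset (Ed n)) :
    (graphOf W).edgeSet = {e | ∃ h : ¬ e.IsDiag, (⟨e, h⟩ : Ed n) ∈ W} := by
  unfold graphOf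
  rw [SimpleGraph.edgeSet_fromEdgeSet]
  ext e
  constructor
  · exact fun h => h.1
  · intro h
    refine ⟨h, ?_⟩
    obtain ⟨h1, -⟩ := h
    simpa using h1

theorem edgesOf_graphOf {n : ℕ} (W : Finset (Ed n)) : edgesOf (graphOf W) = W := by
  ext e
  rw [mem_edgesOf, edgeSet_graphOf]
  constructor
  · rintro ⟨h, he⟩
    exact he
  · intro he
    exact ⟨e.2, he⟩

theorem graphOf_edgesOf {n : ℕ} (G : SimpleGraph (Fin n)) : graphOf (edgesOf G) = G := by
  rw [← SimpleGraph.edgeSet_inj, edgeSet_graphOf]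
  ext e
  constructor
  · rintro ⟨h, he⟩
    exact mem_edgesOf.1 he
  · intro he
    exact ⟨G.not_isDiag_of_mem_edgeSet he, mem_edgesOf.2 he⟩

/-- graphs on `Fin n` are sets of pairs -/
noncomputable def graphEquiv (n : ℕ) : SimpleGraph (Fin n) ≃ Finset (Ed n) where
  toFun := edgesOf
  invFun := graphOf
  left_inv := graphOf_edgesOf
  right_inv := edgesOf_graphOf

theorem ncard_edgeSet {n : ℕ} (G : SimpleGraph (Fin n)) : G.edgeSet.ncard = #(edgesOf G) := by
  have h : G.edgeSet = (fun e : Ed n => e.1) '' (edgesOf G : Set (Ed n)) := by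
    ext e
    constructor
    · intro he
      exact ⟨⟨e, G.not_isDiag_of_mem_edgeSet he⟩, mem_edgesOf.2 he, rfl⟩
    · rintro ⟨e, he, rfl⟩
      exact mem_edgesOf.1 he
  have hinj : Function.Injective (fun e : Ed n => e.1) := fun a b hab => Subtype.ext hab
  rw [h, Set.ncard_image_of_injective _ hinj, Set.ncard_coe_finset]

theorem expect_eq (n : ℕ) (p : ℝ) (X : SimpleGraph (Fin n) → ℝ) :
    expect n p X = ex p (univ : Finset (Ed n)) (fun W => X (graphOf W)) := by
  unfold expect ex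
  rw [powerset_univ]
  apply Fintype.sum_equiv (graphEquiv n)
  intro G
  show weight n p G * X G = p ^ #(edgesOf G) * (1 - p) ^ (Finset.card univ - #(edgesOf G)) *
    X (graphOf (edgesOf G))
  rw [graphOf_edgesOf, weight, ncard_edgeSet, card_univ, card_Ed]

theorem ex_congr {E : Type*} [DecidableEq E] (p : ℝ) (X : Finset E) {f g : Finset E → ℝ}
    (h : ∀ W ⊆ X, f W = g W) : ex p X f = ex p X g := by
  unfold ex
  apply sum_congr rfl
  intro W hW
  rw [h W (mem_powerset.1 hW)]

/-- the probability that a given set is contained in the random set -/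
theorem ex_subset {E : Type*} [DecidableEq E] (p : ℝ) (X : Finset E) :
    ∀ K ⊆ X, ex p X (fun W => if K ⊆ W then 1 else 0) = p ^ #K := by
  induction X using Finset.induction with
  | empty =>
    intro K hK
    rw [subset_empty] at hK
    subst hK
    simp [ex]
  | insert x X hx ih =>
    intro K hK
    rw [ex_insert p hx]
    by_cases hxK : x ∈ K
    · have h1 : ex p X (fun W => if K ⊆ W then (1 : ℝ) else 0) = 0 := by
        rw [ex_congr p X (g := fun _ => 0)]
        · exact ex_const p X 0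
        · intro W hW
          rw [if_neg]
          intro h
          exact hx (hW (h hxK))
      have h2 : ex p X (fun W => if K ⊆ insert x W then (1 : ℝ) else 0) = p ^ #(K.erase x) := by
        rw [← ih (K.erase x) (by
          intro y hy
          rw [mem_erase] at hy
          exact (mem_insert.1 (hK hy.2)).resolve_left hy.1)]
        apply ex_congr
        intro W hW
        exact if_congr subset_insert_iff rfl rfl
      rw [h1, h2, card_erase_of_mem hxK]
      have : 0 < #K := card_pos.2 ⟨x, hxK⟩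
      obtain ⟨c, hc⟩ : ∃ c, #K = c + 1 := ⟨#K - 1, by omega⟩
      rw [hc, Nat.add_sub_cancel, pow_succ]
      ring
    · have hKX : K ⊆ X := by
        intro y hy
        have := hK hy
        rw [mem_insert] at this
        rcases this with h | h
        · rw [h] at hy; exact absurd hy hxK
        · exact h
      have h2 : ex p X (fun W => if K ⊆ insert x W then (1 : ℝ) else 0)
          = ex p X (fun W => if K ⊆ W then (1 : ℝ) else 0) := by
        apply ex_congr
        intro W _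
        exact if_congr (subset_insert_iff_of_notMem hxK) rfl rfl
      rw [h2, ih K hKX]
      ring

/-- the orbit of a set of pairs -/
noncomputable def orb {n : ℕ} (K : Finset (Ed n)) : Finset (Finset (Ed n)) :=
  univ.image (fun g : Equiv.Perm (Fin n) => g • K)

theorem card_of_mem_orb {n : ℕ} {K K' : Finset (Ed n)} (h : K' ∈ orb K) : #K' = #K := by
  unfold orb at h
  rw [mem_image] at h
  obtain ⟨g, -, rfl⟩ := h
  exact card_smul_finset _ _

theorem card_orb_mul {n : ℕ} (K : Finset (Ed n)) :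
    #(orb K) * #{g : Equiv.Perm (Fin n) | g • K = K} = Fintype.card (Equiv.Perm (Fin n)) := by
  have h1 : Fintype.card (Equiv.Perm (Fin n)) = ∑ K' ∈ orb K,
      #{g : Equiv.Perm (Fin n) | g • K = K'} := by
    rw [← card_univ]
    unfold orb
    exact card_eq_sum_card_image _ _
  have h2 : ∀ K' ∈ orb K, #{g : Equiv.Perm (Fin n) | g • K = K'}
      = #{g : Equiv.Perm (Fin n) | g • K = K} := by
    intro K' hK'
    unfold orb at hK'
    rw [mem_image] at hK'
    obtain ⟨a, -, rfl⟩ := hK'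
    symm
    apply card_bij (fun g _ => a * g)
    · intro g hg
      simp only [mem_filter, mem_univ, true_and] at hg ⊢
      rw [mul_smul, hg]
    · intro g _ g' _ h
      exact mul_left_cancel h
    · intro g hg
      simp only [mem_filter, mem_univ, true_and] at hg
      refine ⟨a⁻¹ * g, ?_, by simp⟩
      simp only [mem_filter, mem_univ, true_and]
      rw [mul_smul, hg, inv_smul_smul]
  rw [h1, sum_congr rfl h2, sum_const, smul_eq_mul]

/-- expected number of sets of the orbit contained in the random set -/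
theorem ex_orb {n : ℕ} (p : ℝ) (K : Finset (Ed n)) :
    ex p univ (fun W => (#{K' ∈ orb K | K' ⊆ W} : ℝ)) = #(orb K) * p ^ #K := by
  have h1 : (fun W : Finset (Ed n) => (#{K' ∈ orb K | K' ⊆ W} : ℝ))
      = fun W => ∑ K' ∈ orb K, if K' ⊆ W then 1 else 0 := by
    funext W
    rw [card_filter]
    push_cast
    rfl
  have h2 : ex p univ (fun W : Finset (Ed n) => ∑ K' ∈ orb K, if K' ⊆ W then (1 : ℝ) else 0)
      = ∑ K' ∈ orb K, ex p univ (fun W => if K' ⊆ W then 1 else 0) := by
    unfold ex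
    rw [sum_comm]
    apply sum_congr rfl
    intro W _
    rw [mul_sum]
  rw [h1, h2]
  calc ∑ K' ∈ orb K, ex p univ (fun W => if K' ⊆ W then (1 : ℝ) else 0)
      = ∑ K' ∈ orb K, p ^ #K := by
        apply sum_congr rfl
        intro K' hK'
        rw [ex_subset p univ K' (subset_univ _), card_of_mem_orb hK']
    _ = _ := by rw [sum_const, nsmul_eq_mul]

section copies

variable {n : ℕ} {W : Type*} (φ : W ↪ Fin n) (H : SimpleGraph W)

/-- the subgraph of `H` with a given set of edges and no isolated vertices -/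
def subOf (K : Finset (Ed n)) (hK : K ⊆ edgesOf (H.map φ)) : H.Subgraph where
  verts := {v | ∃ e ∈ K, φ v ∈ e.1}
  Adj u v := ∃ e ∈ K, e.1 = s(φ u, φ v)
  adj_sub := by
    rintro u v ⟨e, he, h⟩
    have h1 := mem_edgesOf.1 (hK he)
    rw [h, SimpleGraph.mem_edgeSet, SimpleGraph.map_adj_apply] at h1
    exact h1
  edge_vert := by
    rintro u v ⟨e, he, h⟩
    exact ⟨e, he, by rw [h]; exact Sym2.mem_mk_left _ _⟩
  symm := ⟨by
    rintro u v ⟨e, he, h⟩
    exact ⟨e, he, by rw [h]; exact Sym2.eq_swap⟩⟩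

open Classical in
/-- the edges of a subgraph -/
noncomputable def subEdges {Γ : SimpleGraph (Fin n)} (G' : Γ.Subgraph) : Finset (Ed n) :=
  univ.filter (fun e => e.1 ∈ G'.edgeSet)

theorem mem_subEdges {Γ : SimpleGraph (Fin n)} {G' : Γ.Subgraph} {e : Ed n} :
    e ∈ subEdges G' ↔ e.1 ∈ G'.edgeSet := by
  simp [subEdges]

variable {φ H}

theorem subOf_nbr {K : Finset (Ed n)} {hK : K ⊆ edgesOf (H.map φ)} {u : W}
    (hu : u ∈ (subOf φ H K hK).verts) : ∃ v, (subOf φ H K hK).Adj u v := by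
  obtain ⟨e, he, hue⟩ := hu
  have h1 := mem_edgesOf.1 (hK he)
  obtain ⟨⟨a, b⟩, hab⟩ := Quot.exists_rep e.1
  have hab' : e.1 = s(a, b) := hab.symm
  rw [hab', SimpleGraph.mem_edgeSet, SimpleGraph.map_adj] at h1
  obtain ⟨u', v', h2, rfl, rfl⟩ := h1
  rw [hab', Sym2.mem_iff] at hue
  rcases hue with h | h
  · refine ⟨v', e, he, ?_⟩
    rw [hab', h]
  · refine ⟨u', e, he, ?_⟩
    rw [hab', h]
    exact Sym2.eq_swap

theorem subEdges_mem_orb {K : Finset (Ed n)} {hK : K ⊆ edgesOf (H.map φ)}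
    {Γ : SimpleGraph (Fin n)} {G' : Γ.Subgraph} (e : (subOf φ H K hK).coe ≃g G'.coe) :
    subEdges G' ∈ orb K := by
  classical
  set F := subOf φ H K hK with hF
  have hinj : Function.Injective (fun v : F.verts => φ v.1) := by
    intro u v huv
    exact Subtype.ext (φ.injective huv)
  let p : Fin n → Prop := fun x => x ∈ Set.range (fun v : F.verts => φ v.1)
  let q : Fin n → Prop := fun x => x ∈ G'.verts
  let f : {x // p x} ≃ {x // q x} := (Equiv.ofInjective _ hinj).symm.trans e.toEquiv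
  let g : Equiv.Perm (Fin n) := Equiv.extendSubtype f
  have hg : ∀ v : F.verts, g (φ v.1) = (e v).1 := by
    intro v
    have hp : p (φ v.1) := ⟨v, rfl⟩
    have h1 : g (φ v.1) = (f ⟨φ v.1, hp⟩).1 := Equiv.extendSubtype_apply_of_mem f _ hp
    rw [h1]
    have h2 : (Equiv.ofInjective _ hinj).symm ⟨φ v.1, hp⟩ = v := by
      rw [Equiv.symm_apply_eq]
      rfl
    show (e.toEquiv ((Equiv.ofInjective _ hinj).symm ⟨φ v.1, hp⟩)).1 = (e v).1
    rw [h2]
    rfl
  unfold orb
  rw [mem_image]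
  refine ⟨g, mem_univ _, ?_⟩
  ext x
  rw [mem_subEdges, mem_smul_finset]
  constructor
  · rintro ⟨y, hy, rfl⟩
    have h1 := mem_edgesOf.1 (hK hy)
    obtain ⟨⟨a, b⟩, hab⟩ := Quot.exists_rep y.1
    have hab' : y.1 = s(a, b) := hab.symm
    rw [hab', SimpleGraph.mem_edgeSet, SimpleGraph.map_adj] at h1
    obtain ⟨u, v, h2, rfl, rfl⟩ := h1
    have h3 : F.Adj u v := ⟨y, hy, hab'⟩
    have h4 : F.coe.Adj ⟨u, h3.fst_mem⟩ ⟨v, h3.snd_mem⟩ := h3
    have h5 := e.map_adj_iff.2 h4
    rw [smul_val, hab', Sym2.map_mk, SimpleGraph.Subgraph.mem_edgeSet]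
    have h6 : G'.Adj (e ⟨u, h3.fst_mem⟩).1 (e ⟨v, h3.snd_mem⟩).1 := h5
    rw [← hg, ← hg] at h6
    exact h6
  · intro hx
    obtain ⟨⟨a, b⟩, hab⟩ := Quot.exists_rep x.1
    have hab' : x.1 = s(a, b) := hab.symm
    rw [hab', SimpleGraph.Subgraph.mem_edgeSet] at hx
    have h3 : G'.coe.Adj ⟨a, hx.fst_mem⟩ ⟨b, hx.snd_mem⟩ := hx
    have h4 := e.symm.map_adj_iff.2 h3
    obtain ⟨y, hy, hy2⟩ : F.Adj (e.symm ⟨a, hx.fst_mem⟩).1 (e.symm ⟨b, hx.snd_mem⟩).1 := h4
    refine ⟨y, hy, ?_⟩
    apply Subtype.ext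
    rw [smul_val, hy2, Sym2.map_mk, hg, hg, hab']
    simp

theorem subEdges_inj {K : Finset (Ed n)} {hK : K ⊆ edgesOf (H.map φ)}
    {Γ : SimpleGraph (Fin n)} {G₁ G₂ : Γ.Subgraph} (e₁ : (subOf φ H K hK).coe ≃g G₁.coe)
    (e₂ : (subOf φ H K hK).coe ≃g G₂.coe) (h : subEdges G₁ = subEdges G₂) : G₁ = G₂ := by
  have hadj : ∀ a b, G₁.Adj a b ↔ G₂.Adj a b := by
    intro a b
    have key : ∀ G' : Γ.Subgraph, G'.Adj a b ↔ ∃ hd : ¬ (s(a, b)).IsDiag,
        (⟨s(a, b), hd⟩ : Ed n) ∈ subEdges G' := by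
      intro G'
      constructor
      · intro hab
        refine ⟨?_, ?_⟩
        · rw [Sym2.mk_isDiag_iff]; exact hab.ne
        · exact mem_subEdges.2 hab
      · rintro ⟨hd, hmem⟩
        exact mem_subEdges.1 hmem
    rw [key, key, h]
  have hv : ∀ (G' : Γ.Subgraph) (e : (subOf φ H K hK).coe ≃g G'.coe) (x : Fin n),
      x ∈ G'.verts ↔ ∃ y, G'.Adj x y := by
    intro G' e x
    constructor
    · intro hx
      obtain ⟨v, hv⟩ := subOf_nbr (e.symm ⟨x, hx⟩).2
      have h1 : (subOf φ H K hK).coe.Adj (e.symm ⟨x, hx⟩) ⟨v, hv.snd_mem⟩ := hv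
      have h2 := e.map_adj_iff.2 h1
      rw [e.apply_symm_apply] at h2
      exact ⟨_, h2⟩
    · rintro ⟨y, hy⟩
      exact hy.fst_mem
  apply SimpleGraph.Subgraph.ext
  · ext x
    rw [hv G₁ e₁, hv G₂ e₂]
    simp only [hadj]
  · funext a b
    exact propext (hadj a b)

theorem copyCount_le {K : Finset (Ed n)} (hK : K ⊆ edgesOf (H.map φ))
    (Γ : SimpleGraph (Fin n)) :
    Γ.copyCount (subOf φ H K hK).coe ≤ #{K' ∈ orb K | K' ⊆ edgesOf Γ} := by
  classical
  unfold SimpleGraph.copyCount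
  apply card_le_card_of_injOn (fun G' => subEdges G')
  · intro G' hG'
    simp only [coe_filter, mem_univ, true_and, Set.mem_ofPred_eq] at hG' ⊢
    obtain ⟨e⟩ := hG'
    refine ⟨subEdges_mem_orb e, ?_⟩
    intro x hx
    rw [mem_subEdges] at hx
    rw [mem_edgesOf]
    exact G'.edgeSet_subset hx
  · intro G₁ h₁ G₂ h₂ h
    simp only [coe_filter, mem_univ, true_and, Set.mem_ofPred_eq] at h₁ h₂
    obtain ⟨e₁⟩ := h₁
    obtain ⟨e₂⟩ := h₂
    exact subEdges_inj e₁ e₂ h

theorem expect_copyCount_le {p : ℝ} (hp0 : 0 ≤ p) (hp1 : p ≤ 1) {K : Finset (Ed n)}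
    (hK : K ⊆ edgesOf (H.map φ)) :
    expect n p (fun Γ => (Γ.copyCount (subOf φ H K hK).coe : ℝ)) ≤ #(orb K) * p ^ #K := by
  rw [expect_eq, ← ex_orb]
  apply ex_mono hp0 hp1
  intro A _
  have := copyCount_le hK (graphOf A)
  rw [edgesOf_graphOf] at this
  exact_mod_cast this

end copies

end P064
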