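import Mathlib
import Vale.Agent.P064.Graph

/-!
# P064: `p_c ≤ C p_E log ^ 2`
-/

open Finset Pointwise

namespace P064

theorem ex_one {E : Type*} [DecidableEq E] (X : Finset E) :
    ∀ f : Finset E → ℝ, ex 1 X f = f X := by
  induction X using Finset.induction with
  | empty => intro f; simp [ex]
  | insert x X hx ih =>
    intro f
    rw [ex_insert 1 hx, ih, ih]
    ring

section

variable {n : ℕ} {W : Type} (φ : W ↪ Fin n) (H : SimpleGraph W)

theorem contained_of_subset {g : Equiv.Perm (Fin n)} {A : Finset (Ed n)}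
    (h : g • edgesOf (H.map φ) ⊆ A) : 0 < (graphOf A).copyCount H := by
  rw [SimpleGraph.copyCount_pos]
  refine ⟨⟨⟨fun v => g (φ v), ?_⟩, ?_⟩⟩
  · intro u v huv
    have hne : u ≠ v := huv.ne
    have h1 : ¬ (s(φ u, φ v)).IsDiag := by
      rw [Sym2.mk_isDiag_iff]
      exact fun h => hne (φ.injective h)
    have h2 : (⟨s(φ u, φ v), h1⟩ : Ed n) ∈ edgesOf (H.map φ) := by
      apply mem_edgesOf.2
      show s(φ u, φ v) ∈ (H.map φ).edgeSet
      rw [SimpleGraph.mem_edgeSet, SimpleGraph.map_adj_apply]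
      exact huv
    have h3 := h (smul_mem_smul_finset (a := g) h2)
    have h4 : (⟨s(g (φ u), g (φ v)), _⟩ : Ed n) ∈ A := h3
    rw [← edgesOf_graphOf A] at h4
    exact mem_edgesOf.1 h4
  · intro u v huv
    exact φ.injective (g.injective huv)

theorem card_edgesOf_map : #(edgesOf (H.map φ)) = H.edgeSet.ncard := by
  rw [← ncard_edgeSet, SimpleGraph.edgeSet_map]
  exact Set.ncard_image_of_injective _ φ.sym2Map.injective

/-- The constraints defining `p_E` bound the stabilisers. -/
theorem stab_le {p : ℝ} (hp0 : 0 ≤ p) (hp1 : p ≤ 1)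
    (hp : ∀ F : H.Subgraph, 1 / 2 ≤ expect n p (fun G => (G.copyCount F.coe : ℝ)))
    (K : Finset (Ed n)) (hK : K ⊆ edgesOf (H.map φ)) :
    (#{g : Equiv.Perm (Fin n) | g • K = K} : ℝ)
      ≤ 2 * p ^ #K * Fintype.card (Equiv.Perm (Fin n)) := by
  have h1 := (hp (subOf φ H K hK)).trans (expect_copyCount_le hp0 hp1 hK)
  have h2 := card_orb_mul K
  rw [← h2]
  push_cast
  have h3 : (0 : ℝ) ≤ #{g : Equiv.Perm (Fin n) | g • K = K} := Nat.cast_nonneg _
  nlinarith

include φ in
theorem pc_nonempty :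
    (1 : ℝ) ∈ {p : ℝ | 0 ≤ p ∧ p ≤ 1 ∧ 1 / 2 ≤ prob n p (fun G => 0 < G.copyCount H)} := by
  refine ⟨by norm_num, le_refl _, ?_⟩
  unfold prob
  rw [expect_eq, ex_one]
  rw [if_pos]
  · norm_num
  · exact contained_of_subset (g := 1) φ H (subset_univ _)

theorem pc_le_of_mem {p : ℝ}
    (h : p ∈ {p : ℝ | 0 ≤ p ∧ p ≤ 1 ∧ 1 / 2 ≤ prob n p (fun G => 0 < G.copyCount H)}) :
    pc n H ≤ p := by
  unfold pc
  apply csInf_le _ h
  exact ⟨0, fun x hx => hx.1⟩

include φ in
theorem pE_nonempty :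
    (1 : ℝ) ∈ {p : ℝ | 0 ≤ p ∧ p ≤ 1 ∧
      ∀ F : H.Subgraph, 1 / 2 ≤ expect n p (fun G => (G.copyCount F.coe : ℝ))} := by
  refine ⟨by norm_num, le_refl _, ?_⟩
  intro F
  rw [expect_eq, ex_one]
  have h1 : 0 < (graphOf (univ : Finset (Ed n))).copyCount H :=
    contained_of_subset (g := 1) φ H (subset_univ _)
  rw [SimpleGraph.copyCount_pos] at h1
  have h2 : 0 < (graphOf (univ : Finset (Ed n))).copyCount F.coe := by
    rw [SimpleGraph.copyCount_pos]
    exact F.coe_isContained.trans h1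
  have h3 : (1 : ℝ) ≤ ((graphOf (univ : Finset (Ed n))).copyCount F.coe : ℝ) := by exact_mod_cast h2
  linarith

theorem cnt_eq (T K : Finset (Ed n)) :
    #{g : Equiv.Perm (Fin n) | T ⊆ g • K} = cnt (Equiv.Perm (Fin n)) T K := by
  unfold cnt
  apply card_bij (fun g _ => g⁻¹)
  · intro g hg
    simp only [mem_filter, mem_univ, true_and] at hg ⊢
    rw [← subset_smul_finset_iff]
    exact hg
  · intro g _ g' _ h
    exact inv_injective h
  · intro g hg
    simp only [mem_filter, mem_univ, true_and] at hg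
    refine ⟨g⁻¹, ?_, by simp⟩
    simp only [mem_filter, mem_univ, true_and]
    rw [subset_smul_finset_iff, inv_inv]
    exact hg

include φ in
theorem pc_le_aux (he : 1 ≤ H.edgeSet.ncard) (k : ℕ) (hk : H.edgeSet.ncard ≤ 2 ^ k) {p : ℝ}
    (hp0 : 0 ≤ p) (hp1 : p ≤ 1)
    (hp : ∀ F : H.Subgraph, 1 / 2 ≤ expect n p (fun G => (G.copyCount F.coe : ℝ))) :
    pc n H ≤ 512 * (k + 1) ^ 2 * p := by
  classical
  have hE : #(edgesOf (H.map φ)) = H.edgeSet.ncard := card_edgesOf_map φ H
  have hppos : 0 < p := by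
    rcases hp0.lt_or_eq with h | h
    · exact h
    · exfalso
      have h1 := (hp (subOf φ H _ (Subset.refl _))).trans
        (expect_copyCount_le hp0 hp1 (Subset.refl (edgesOf (H.map φ))))
      rw [← h, zero_pow (by omega), mul_zero] at h1
      norm_num at h1
  rcases le_or_gt (512 * ((k : ℝ) + 1) ^ 2 * p) 1 with hle | hgt
  · apply pc_le_of_mem
    refine ⟨by positivity, hle, ?_⟩
    have hspread : ∀ T : Finset (Ed n),
        (#{g ∈ (univ : Finset (Equiv.Perm (Fin n))) | T ⊆ g • edgesOf (H.map φ)} : ℝ)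
        ≤ ((4 + 32 * k) * p) ^ #T * #(univ : Finset (Equiv.Perm (Fin n))) := by
      intro T
      rcases T.eq_empty_or_nonempty with hT | hT
      · subst hT
        simp
      · rw [cnt_eq]
        have h1 := orbit_bound hppos (stab_le φ H hp0 hp1 hp) k #T (edgesOf (H.map φ)) T
          (Subset.refl _) (by
            rw [hE]
            refine hk.trans ?_
            exact Nat.le_mul_of_pos_right _ (card_pos.2 hT)) (le_refl _)
        rw [Nat.sub_self, pow_zero, mul_one] at h1
        rw [card_univ]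
        linarith
    have h2 := spread_lemma (ρ := (4 + 32 * k) * p) (by positivity)
      (univ : Finset (Equiv.Perm (Fin n))) univ_nonempty
      (fun g => g • edgesOf (H.map φ)) (k + 1) (by
        intro g _
        rw [card_smul_finset, hE, pow_succ]
        have : 0 < 2 ^ k := by positivity
        omega) hspread (p := 512 * (k + 1) ^ 2 * p) (by
          push_cast
          have : (0 : ℝ) ≤ k := Nat.cast_nonneg k
          nlinarith [mul_nonneg this hppos.le, mul_nonneg (mul_nonneg this this) hppos.le])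
      (by omega) hle
    unfold prob
    rw [expect_eq]
    have h3 : (1 : ℝ) / 2 ≤ 3 / 4 := by norm_num
    refine h3.trans (h2.trans ?_)
    apply ex_mono (by positivity) hle
    intro A _
    split_ifs with h4 h5 h5
    · exact le_refl _
    · exfalso
      apply h5
      obtain ⟨g, -, hg⟩ := h4
      exact contained_of_subset φ H hg
    · norm_num
    · exact le_refl _
  · exact (pc_le_of_mem H (pc_nonempty φ H)).trans hgt.le

end

/-- the main estimate with explicit constants -/
theorem main {n : ℕ} {W : Type} [Fintype W] (H : SimpleGraph W)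
    (hW : Fintype.card W ≤ n) (he : 1 ≤ H.edgeSet.ncard) :
    pc n H ≤ 5000 * pE n H * Real.log (2 * H.edgeSet.ncard) ^ 2 := by
  obtain ⟨φ⟩ : Nonempty (W ↪ Fin n) :=
    Function.Embedding.nonempty_of_card_le (by rw [Fintype.card_fin]; exact hW)
  set e := H.edgeSet.ncard with hedef
  have heR : (1 : ℝ) ≤ e := by exact_mod_cast he
  set L := Real.log (2 * e) with hL
  have hlog2 := Real.log_two_gt_d9
  have hL2 : Real.log 2 ≤ L := Real.log_le_log (by norm_num) (by linarith)
  have hLpos : 0 < L := by linarith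
  have hLsplit : L = Real.log 2 + Real.log e := Real.log_mul (by norm_num) (by positivity)
  -- the bound for `k`
  have hk : ((Nat.clog 2 e : ℕ) : ℝ) + 1 ≤ 2 * L / Real.log 2 := by
    rw [le_div_iff₀ (by linarith)]
    rcases Nat.lt_or_ge 1 e with h | h
    · have h1 := Nat.pow_pred_clog_lt_self (by norm_num : 1 < 2) h
      have h2 : 0 < Nat.clog 2 e := Nat.clog_pos (by norm_num) h
      have h3 : ((2 : ℝ)) ^ (Nat.clog 2 e).pred ≤ e := by exact_mod_cast h1.le
      have h4 := Real.log_le_log (by positivity) h3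
      rw [Real.log_pow] at h4
      have h5 : (((Nat.clog 2 e).pred : ℕ) : ℝ) = (Nat.clog 2 e : ℝ) - 1 := by
        rw [Nat.pred_eq_sub_one, Nat.cast_sub h2]
        simp
      rw [h5] at h4
      have h6 : 0 ≤ Real.log e := Real.log_nonneg heR
      rw [hLsplit]
      nlinarith
    · have h1 : e = 1 := by omega
      rw [h1, Nat.clog_one_right]
      rw [hLsplit, h1]
      simp
      linarith
  have hbound : ∀ p ∈ {p : ℝ | 0 ≤ p ∧ p ≤ 1 ∧
      ∀ F : H.Subgraph, 1 / 2 ≤ expect n p (fun G => (G.copyCount F.coe : ℝ))},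
      pc n H / (5000 * L ^ 2) ≤ p := by
    rintro p ⟨hp0, hp1, hp⟩
    rw [div_le_iff₀ (by positivity)]
    have h1 := pc_le_aux φ H he (Nat.clog 2 e) (Nat.le_pow_clog (by norm_num) e) hp0 hp1 hp
    refine h1.trans ?_
    have h2 : (((Nat.clog 2 e : ℕ) : ℝ) + 1) ^ 2 ≤ (2 * L / Real.log 2) ^ 2 := by
      apply pow_le_pow_left₀ (by positivity) hk
    have h3 : (2 * L / Real.log 2) ^ 2 * 512 ≤ 5000 * L ^ 2 := by
      rw [div_pow, div_mul_eq_mul_div, div_le_iff₀ (by positivity)]
      have h4 : (0.48 : ℝ) ≤ Real.log 2 ^ 2 := by nlinarith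
      nlinarith [sq_nonneg L]
    calc 512 * (((Nat.clog 2 e : ℕ) : ℝ) + 1) ^ 2 * p
        ≤ 512 * (2 * L / Real.log 2) ^ 2 * p := by gcongr
      _ = ((2 * L / Real.log 2) ^ 2 * 512) * p := by ring
      _ ≤ (5000 * L ^ 2) * p := by gcongr
      _ = p * (5000 * L ^ 2) := by ring
  have h1 : pc n H / (5000 * L ^ 2) ≤ pE n H := by
    unfold pE
    exact le_csInf ⟨1, pE_nonempty φ H⟩ hbound
  rw [div_le_iff₀ (by positivity)] at h1
  linarith

theorem pE_nonneg {n : ℕ} {W : Type} (H : SimpleGraph W) : 0 ≤ pE n H := by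
  unfold pE
  exact Real.sInf_nonneg (fun x hx => hx.1)

theorem main_log_n {n : ℕ} (hn : 2 ≤ n) {W : Type} [Fintype W] (H : SimpleGraph W)
    (hW : Fintype.card W ≤ n) (he : 1 ≤ H.edgeSet.ncard) :
    pc n H ≤ 20000 * pE n H * Real.log n ^ 2 := by
  refine (main H hW he).trans ?_
  obtain ⟨φ⟩ : Nonempty (W ↪ Fin n) :=
    Function.Embedding.nonempty_of_card_le (by rw [Fintype.card_fin]; exact hW)
  have h1 : H.edgeSet.ncard ≤ n.choose 2 := by
    rw [← card_edgesOf_map φ H, ← card_Ed]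
    exact card_le_univ _
  have h2 : 2 * H.edgeSet.ncard ≤ n ^ 2 := by
    rw [Nat.choose_two_right] at h1
    have h4 : n * (n - 1) ≤ n ^ 2 := by
      rw [pow_two]
      exact Nat.mul_le_mul_left _ (Nat.sub_le _ _)
    generalize n * (n - 1) = a at h1 h4
    generalize n ^ 2 = b at h4 ⊢
    omega
  have h3 : (2 * (H.edgeSet.ncard : ℝ)) ≤ (n : ℝ) ^ 2 := by exact_mod_cast h2
  have he1 : (1 : ℝ) ≤ H.edgeSet.ncard := by exact_mod_cast he
  have h4 : Real.log (2 * H.edgeSet.ncard) ≤ 2 * Real.log n := by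
    have := Real.log_le_log (by positivity) h3
    rw [Real.log_pow] at this
    exact_mod_cast this
  have h5 : 0 ≤ Real.log (2 * H.edgeSet.ncard) := Real.log_nonneg (by linarith)
  have h6 : Real.log (2 * H.edgeSet.ncard) ^ 2 ≤ (2 * Real.log n) ^ 2 := pow_le_pow_left₀ h5 h4 2
  have h7 := pE_nonneg (n := n) H
  calc 5000 * pE n H * Real.log (2 * H.edgeSet.ncard) ^ 2
      ≤ 5000 * pE n H * (2 * Real.log n) ^ 2 := by gcongr
    _ = 20000 * pE n H * Real.log n ^ 2 := by ring

end P064
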