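import Mathlib
import Vale.Agent.P064.Main

/-!
# P064: the second Kahn-Kalai conjecture from the equivariant form of Talagrand's conjecture
-/

open Finset Pointwise

namespace P064

/-- The equivariant fractional-to-integral comparison for sets of pairs, for one constant `K`:
every invariant weight on `k`-sets with total mass at most `(K q)^(-k)` has an invariant integral
cover of cost less than `1/2` of all sets `T` of weight at least one. -/
def EqCover (n : ℕ) (K q : ℝ) : Prop :=
  ∀ (k : ℕ) (w : Finset (Ed n) → ℝ), 1 ≤ k → (∀ S, 0 ≤ w S) → (∀ S, w S ≠ 0 → S.card = k) →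
    (∀ (g : Equiv.Perm (Fin n)) (S : Finset (Ed n)), w (g • S) = w S) →
    (∑ S, w S) * (K * q) ^ k ≤ 1 →
    ∃ G : Finset (Finset (Ed n)), (∀ (g : Equiv.Perm (Fin n)), ∀ S ∈ G, g • S ∈ G) ∧
      ∑ Z ∈ G, q ^ Z.card < 1 / 2 ∧ ∀ T : Finset (Ed n), 1 ≤ ∑ Y ∈ T.powerset, w Y →
        ∃ Z ∈ G, Z ⊆ T

variable {n : ℕ}

/-- number of `g` mapping `T` to `S`, an invariant function of `S` -/
noncomputable def hitc (T S : Finset (Ed n)) : ℕ := #{g : Equiv.Perm (Fin n) | g • T = S}

theorem hitc_smul (T S : Finset (Ed n)) (h : Equiv.Perm (Fin n)) :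
    hitc T (h • S) = hitc T S := by
  unfold hitc
  symm
  apply card_bij (fun g _ => h * g)
  · intro g hg
    simp only [mem_filter, mem_univ, true_and] at hg ⊢
    rw [mul_smul, hg]
  · intro g _ g' _ hgg
    exact mul_left_cancel hgg
  · intro g hg
    simp only [mem_filter, mem_univ, true_and] at hg
    refine ⟨h⁻¹ * g, ?_, by simp⟩
    simp only [mem_filter, mem_univ, true_and]
    rw [mul_smul, hg, inv_smul_smul]

theorem sum_hitc (T : Finset (Ed n)) :
    ∑ S : Finset (Ed n), hitc T S = Fintype.card (Equiv.Perm (Fin n)) := by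
  unfold hitc
  rw [← card_univ]
  exact (card_eq_sum_card_fiberwise (f := fun g : Equiv.Perm (Fin n) => g • T)
    (s := univ) (t := univ) (fun _ _ => mem_coe.2 (mem_univ _))).symm

theorem sum_hitc_powerset (T H : Finset (Ed n)) :
    ∑ S ∈ H.powerset, hitc T S = cnt (Equiv.Perm (Fin n)) T H := by
  unfold hitc cnt
  rw [card_eq_sum_card_fiberwise (f := fun g : Equiv.Perm (Fin n) => g • T) (t := H.powerset)]
  · apply sum_congr rfl
    intro S hS
    rw [mem_powerset] at hS
    congr 1
    ext g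
    simp only [mem_filter, mem_univ, true_and]
    constructor
    · intro h
      exact ⟨by rw [h]; exact hS, h⟩
    · exact fun h => h.2
  · intro g hg
    simp only [coe_filter, mem_univ, true_and, Set.mem_ofPred_eq] at hg
    rw [mem_coe, mem_powerset]
    exact hg

/-- **The orbit theorem without loss.** -/
theorem orbit_sharp {K q : ℝ} (hK : 0 < K) (hq : 0 < q) (hcl : EqCover n K q)
    {H : Finset (Ed n)}
    (hstab : ∀ S ⊆ H, (#{g : Equiv.Perm (Fin n) | g • S = S} : ℝ)
      ≤ 2 * q ^ #S * Fintype.card (Equiv.Perm (Fin n)))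
    (T : Finset (Ed n)) (hT : T.Nonempty) :
    (cnt (Equiv.Perm (Fin n)) T H : ℝ) ≤
      (K * q) ^ #T * Fintype.card (Equiv.Perm (Fin n)) := by
  by_contra hcon
  push Not at hcon
  have hG : (0 : ℝ) < Fintype.card (Equiv.Perm (Fin n)) := by exact_mod_cast Fintype.card_pos
  have hKq : 0 < K * q := mul_pos hK hq
  set c : ℝ := (cnt (Equiv.Perm (Fin n)) T H : ℝ) with hc
  have hcpos : 0 < c := lt_of_le_of_lt (by positivity) hcon
  -- the invariant weight
  obtain ⟨G, hGinv, hGcost, hGcov⟩ := hcl #T (fun S => (hitc T S : ℝ) / c) (card_pos.2 hT)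
    (fun S => by positivity)
    (fun S hS => by
      have h1 : hitc T S ≠ 0 := by
        intro h0
        apply hS
        simp [h0]
      unfold hitc at h1
      rw [card_ne_zero] at h1
      obtain ⟨g, hg⟩ := h1
      simp only [mem_filter, mem_univ, true_and] at hg
      rw [← hg, card_smul_finset])
    (fun g S => by
      show (hitc T (g • S) : ℝ) / c = (hitc T S : ℝ) / c
      rw [hitc_smul])
    (by
      rw [← sum_div, ← Nat.cast_sum, sum_hitc, div_mul_eq_mul_div, div_le_one hcpos]
      linarith)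
  obtain ⟨S, hSG, hSH⟩ := hGcov H (by
    rw [← sum_div, ← Nat.cast_sum, sum_hitc_powerset, div_self hcpos.ne'])
  -- the orbit of `S` lies in `G`
  have horb : orb S ⊆ G := by
    intro S' hS'
    unfold orb at hS'
    rw [mem_image] at hS'
    obtain ⟨g, -, rfl⟩ := hS'
    exact hGinv g S hSG
  have h1 : (#(orb S) : ℝ) * q ^ #S ≤ ∑ Z ∈ G, q ^ Z.card := by
    calc (#(orb S) : ℝ) * q ^ #S = ∑ Z ∈ orb S, q ^ Z.card := by
          rw [← nsmul_eq_mul, ← sum_const]
          exact sum_congr rfl fun Z hZ => by rw [card_of_mem_orb hZ]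
      _ ≤ ∑ Z ∈ G, q ^ Z.card :=
          sum_le_sum_of_subset_of_nonneg horb fun _ _ _ => by positivity
  have h2 := card_orb_mul S
  have h3 : (#(orb S) : ℝ) * (#{g : Equiv.Perm (Fin n) | g • S = S} : ℝ)
      = Fintype.card (Equiv.Perm (Fin n)) := by exact_mod_cast h2
  have h4 := hstab S hSH
  have h5 : (Fintype.card (Equiv.Perm (Fin n)) : ℝ) ≤
      (#(orb S) : ℝ) * (2 * q ^ #S * Fintype.card (Equiv.Perm (Fin n))) := by
    rw [← h3]
    calc (#(orb S) : ℝ) * (#{g : Equiv.Perm (Fin n) | g • S = S} : ℝ)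
        ≤ (#(orb S) : ℝ) * (2 * q ^ #S * Fintype.card (Equiv.Perm (Fin n))) :=
          mul_le_mul_of_nonneg_left h4 (by positivity)
      _ = _ := by rw [h3]
  have h6 : (1 : ℝ) * Fintype.card (Equiv.Perm (Fin n)) ≤
      (2 * ((#(orb S) : ℝ) * q ^ #S)) * Fintype.card (Equiv.Perm (Fin n)) := by
    linarith
  have h7 := le_of_mul_le_mul_right h6 hG
  linarith

section

variable {W : Type} (φ : W ↪ Fin n) (H : SimpleGraph W)

include φ in
theorem pc_le_sharp {K : ℝ} (hK : 1 ≤ K) (hcl : ∀ q : ℝ, 0 < q → EqCover n K q)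
    (he : 1 ≤ H.edgeSet.ncard) (k : ℕ) (hk : H.edgeSet.ncard ≤ 2 ^ k) {p : ℝ}
    (hp0 : 0 ≤ p) (hp1 : p ≤ 1)
    (hp : ∀ F : H.Subgraph, 1 / 2 ≤ expect n p (fun G => (G.copyCount F.coe : ℝ))) :
    pc n H ≤ 16 * K * (k + 1) * p := by
  classical
  have hE : #(edgesOf (H.map φ)) = H.edgeSet.ncard := card_edgesOf_map φ H
  have hppos : 0 < p := by
    rcases hp0.lt_or_eq with h | h
    · exact h
    · exfalso
      have h1 := (hp (subOf φ H _ (Subset.refl _))).trans
        (expect_copyCount_le hp0 hp1 (Subset.refl (edgesOf (H.map φ))))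
      rw [← h, zero_pow (by omega), mul_zero] at h1
      norm_num at h1
  have hKpos : 0 < K := by linarith
  rcases le_or_gt (16 * K * ((k : ℝ) + 1) * p) 1 with hle | hgt
  · apply pc_le_of_mem
    refine ⟨by positivity, hle, ?_⟩
    have hspread : ∀ T : Finset (Ed n),
        (#{g ∈ (univ : Finset (Equiv.Perm (Fin n))) | T ⊆ g • edgesOf (H.map φ)} : ℝ)
        ≤ (K * p) ^ #T * #(univ : Finset (Equiv.Perm (Fin n))) := by
      intro T
      rcases T.eq_empty_or_nonempty with hT | hT
      · subst hT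
        simp
      · rw [cnt_eq, card_univ]
        exact orbit_sharp hKpos hppos (hcl p hppos) (stab_le φ H hp0 hp1 hp) T hT
    have h2 := spread_lemma (ρ := K * p) (by positivity)
      (univ : Finset (Equiv.Perm (Fin n))) univ_nonempty
      (fun g => g • edgesOf (H.map φ)) (k + 1) (by
        intro g _
        rw [card_smul_finset, hE, pow_succ]
        have : 0 < 2 ^ k := by positivity
        omega) hspread (p := 16 * K * (k + 1) * p) (by
          push_cast
          apply le_of_eq
          ring)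
      (by omega) hle
    unfold prob
    rw [expect_eq]
    have h3 : (1 : ℝ) / 2 ≤ 3 / 4 := by norm_num
    refine h3.trans (h2.trans ?_)
    apply ex_mono (by positivity) hle
    intro A _
    split_ifs with h4 h5 h5
    · exact le_refl _
    · exfalso
      apply h5
      obtain ⟨g, -, hg⟩ := h4
      exact contained_of_subset φ H hg
    · norm_num
    · exact le_refl _
  · exact (pc_le_of_mem H (pc_nonempty φ H)).trans hgt.le

end

/-- The second Kahn-Kalai conjecture from the equivariant comparison. -/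
theorem second {K : ℝ} (hK : 1 ≤ K) {n : ℕ} (hcl : ∀ q : ℝ, 0 < q → EqCover n K q)
    {W : Type} [Fintype W] (H : SimpleGraph W)
    (hW : Fintype.card W ≤ n) (he : 1 ≤ H.edgeSet.ncard) :
    pc n H ≤ 48 * K * pE n H * Real.log (2 * H.edgeSet.ncard) := by
  obtain ⟨φ⟩ : Nonempty (W ↪ Fin n) :=
    Function.Embedding.nonempty_of_card_le (by rw [Fintype.card_fin]; exact hW)
  set e := H.edgeSet.ncard with hedef
  have heR : (1 : ℝ) ≤ e := by exact_mod_cast he
  set L := Real.log (2 * e) with hL
  have hlog2 := Real.log_two_gt_d9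
  have hL2 : Real.log 2 ≤ L := Real.log_le_log (by norm_num) (by linarith)
  have hLpos : 0 < L := by linarith
  have hLsplit : L = Real.log 2 + Real.log e := Real.log_mul (by norm_num) (by positivity)
  -- the bound for `k`
  have hk : ((Nat.clog 2 e : ℕ) : ℝ) + 1 ≤ 2 * L / Real.log 2 := by
    rw [le_div_iff₀ (by linarith)]
    rcases Nat.lt_or_ge 1 e with h | h
    · have h1 := Nat.pow_pred_clog_lt_self (by norm_num : 1 < 2) h
      have h2 : 0 < Nat.clog 2 e := Nat.clog_pos (by norm_num) h
      have h3 : ((2 : ℝ)) ^ (Nat.clog 2 e).pred ≤ e := by exact_mod_cast h1.le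
      have h4 := Real.log_le_log (by positivity) h3
      rw [Real.log_pow] at h4
      have h5 : (((Nat.clog 2 e).pred : ℕ) : ℝ) = (Nat.clog 2 e : ℝ) - 1 := by
        rw [Nat.pred_eq_sub_one, Nat.cast_sub h2]
        simp
      rw [h5] at h4
      have h6 : 0 ≤ Real.log e := Real.log_nonneg heR
      rw [hLsplit]
      nlinarith
    · have h1 : e = 1 := by omega
      rw [h1, Nat.clog_one_right]
      rw [hLsplit, h1]
      simp
      linarith
  have hKpos : 0 < K := by linarith
  have hbound : ∀ p ∈ {p : ℝ | 0 ≤ p ∧ p ≤ 1 ∧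
      ∀ F : H.Subgraph, 1 / 2 ≤ expect n p (fun G => (G.copyCount F.coe : ℝ))},
      pc n H / (48 * K * L) ≤ p := by
    rintro p ⟨hp0, hp1, hp⟩
    rw [div_le_iff₀ (by positivity)]
    have h1 := pc_le_sharp φ H hK hcl he (Nat.clog 2 e) (Nat.le_pow_clog (by norm_num) e) hp0 hp1 hp
    refine h1.trans ?_
    have h3 : 2 * L / Real.log 2 ≤ 3 * L := by
      rw [div_le_iff₀ (by linarith)]
      nlinarith
    calc 16 * K * (((Nat.clog 2 e : ℕ) : ℝ) + 1) * p
        ≤ 16 * K * (3 * L) * p := by
          have := hk.trans h3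
          gcongr
      _ = p * (48 * K * L) := by ring
  have h1 : pc n H / (48 * K * L) ≤ pE n H := by
    unfold pE
    exact le_csInf ⟨1, pE_nonempty φ H⟩ hbound
  rw [div_le_iff₀ (by positivity)] at h1
  linarith

theorem second_log_n {K : ℝ} (hK : 1 ≤ K) {n : ℕ} (hcl : ∀ q : ℝ, 0 < q → EqCover n K q)
    {W : Type} [Fintype W] (H : SimpleGraph W)
    (hW : Fintype.card W ≤ n) (he : 1 ≤ H.edgeSet.ncard) :
    pc n H ≤ 96 * K * pE n H * Real.log n := by
  refine (second hK hcl H hW he).trans ?_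
  obtain ⟨φ⟩ : Nonempty (W ↪ Fin n) :=
    Function.Embedding.nonempty_of_card_le (by rw [Fintype.card_fin]; exact hW)
  have h1 : H.edgeSet.ncard ≤ n.choose 2 := by
    rw [← card_edgesOf_map φ H, ← card_Ed]
    exact card_le_univ _
  have h2 : 2 * H.edgeSet.ncard ≤ n ^ 2 := by
    rw [Nat.choose_two_right] at h1
    have h4 : n * (n - 1) ≤ n ^ 2 := by
      rw [pow_two]
      exact Nat.mul_le_mul_left _ (Nat.sub_le _ _)
    generalize n * (n - 1) = a at h1 h4
    generalize n ^ 2 = b at h4 ⊢
    omega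
  have h3 : (2 * (H.edgeSet.ncard : ℝ)) ≤ (n : ℝ) ^ 2 := by exact_mod_cast h2
  have he1 : (1 : ℝ) ≤ H.edgeSet.ncard := by exact_mod_cast he
  have h4 : Real.log (2 * H.edgeSet.ncard) ≤ 2 * Real.log n := by
    have := Real.log_le_log (by positivity) h3
    rw [Real.log_pow] at this
    exact_mod_cast this
  have h7 := pE_nonneg (n := n) H
  have hKpos : 0 < K := by linarith
  calc 48 * K * pE n H * Real.log (2 * H.edgeSet.ncard)
      ≤ 48 * K * pE n H * (2 * Real.log n) := by gcongr
    _ = 96 * K * pE n H * Real.log n := by ring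

end P064
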