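import Mathlib
import Vale.Agent.P064.Second
import Vale.Agent.P034F.Base

/-!
# P064: from the equivariant claim `TAL.Claim` to the second Kahn-Kalai conjecture
-/

open Finset Pointwise

namespace P064

/-- the group of permutations of the pairs induced by permutations of the vertices -/
noncomputable def edGroup (n : ℕ) : Subgroup (Equiv.Perm (Ed n)) :=
  (MulAction.toPermHom (Equiv.Perm (Fin n)) (Ed n)).range

theorem act_toPerm {n : ℕ} (g : Equiv.Perm (Fin n)) (S : Finset (Ed n)) :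
    TAL.act (MulAction.toPermHom (Equiv.Perm (Fin n)) (Ed n) g) S = g • S := by
  unfold TAL.act
  rw [Finset.map_eq_image]
  rfl

theorem mem_edGroup {n : ℕ} (g : Equiv.Perm (Fin n)) :
    MulAction.toPermHom (Equiv.Perm (Fin n)) (Ed n) g ∈ edGroup n :=
  ⟨g, rfl⟩

theorem eqCover_of_claim {n : ℕ} {K q : ℝ} (hK : Real.exp 20000 ≤ K)
    (h : TAL.Claim (edGroup n) q K) : EqCover n K q := by
  intro k w hk hw hcard hinv htot
  obtain ⟨G, hG, hcost, hcov⟩ := h k w hk hw hcard (by
    rintro σ ⟨g, rfl⟩ Y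
    rw [act_toPerm]
    exact hinv g Y) htot
  refine ⟨G, ?_, ?_, hcov⟩
  · intro g S hS
    have := hG _ (mem_edGroup g) S hS
    rwa [act_toPerm] at this
  have hKpos : 0 < K := lt_of_lt_of_le (Real.exp_pos _) hK
  have hk1 : (1 : ℝ) ≤ k := by exact_mod_cast hk
  have h1 : K ^ (-((k : ℝ) / 40)) ≤ Real.exp (-1) := by
    rw [Real.rpow_def_of_pos hKpos]
    apply Real.exp_le_exp.2
    have h2 : 20000 ≤ Real.log K := (Real.le_log_iff_exp_le hKpos).2 hK
    nlinarith
  have h3 : Real.exp (-1) < 1 / 2 := by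
    rw [Real.exp_neg, ← one_div]
    apply one_div_lt_one_div_of_lt (by norm_num)
    linarith [Real.exp_one_gt_d9]
  have h4 : ∑ Z ∈ G, q ^ Z.card = TAL.cost q G := rfl
  rw [h4]
  exact lt_of_le_of_lt (hcost.trans h1) h3

/-- Final form, from the equivariant claim at `K = exp 20000`. -/
theorem second_of_claim
    (hcl : ∀ (n : ℕ) (q : ℝ), 0 < q → TAL.Claim (edGroup n) q (Real.exp 20000)) :
    ∃ C : ℝ, 0 < C ∧ ∀ (n : ℕ), 2 ≤ n → ∀ (W : Type) [Fintype W]
    (H : SimpleGraph W), Fintype.card W ≤ n → 1 ≤ H.edgeSet.ncard →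
      pc n H ≤ C * pE n H * Real.log (2 * H.edgeSet.ncard) ∧
      pc n H ≤ C * pE n H * Real.log n := by
  have hK : (1 : ℝ) ≤ Real.exp 20000 := Real.one_le_exp (by norm_num)
  refine ⟨96 * Real.exp 20000, by positivity, ?_⟩
  intro n _ W _ H hW he
  have hc : ∀ q : ℝ, 0 < q → EqCover n (Real.exp 20000) q := fun q hq =>
    eqCover_of_claim (le_refl _) (hcl n q hq)
  refine ⟨(second hK hc H hW he).trans ?_, second_log_n hK hc H hW he⟩
  have h7 := pE_nonneg (n := n) H
  have he1 : (1 : ℝ) ≤ H.edgeSet.ncard := by exact_mod_cast he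
  have h5 : 0 ≤ Real.log (2 * H.edgeSet.ncard) := Real.log_nonneg (by linarith)
  have h8 : 0 ≤ Real.exp 20000 * pE n H * Real.log (2 * H.edgeSet.ncard) := by positivity
  linarith

end P064
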