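import Mathlib
import Vale.Agent.P064.Main
import Vale.Agent.P064.Orbit

/-!
# P064: the second Kahn-Kalai conjecture from the equivariant covering claim
-/

open Finset Pointwise

namespace P064

/-- The covering claim for the density `q` and the ratio `K`, with symmetry group `Γ`. -/
def CoverClaim (Γ X : Type) [Group Γ] [Fintype X] [DecidableEq X] [MulAction Γ X] (q K : ℝ) :
    Prop :=
  ∀ (k : ℕ) (w : Finset X → ℝ), 1 ≤ k → (∀ S, 0 ≤ w S) → (∀ S, w S ≠ 0 → #S = k) →
    (∀ (g : Γ) (S : Finset X), w (g • S) = w S) → (∑ S, w S) * (K * q) ^ k ≤ 1 →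
    ∃ F : Finset (Finset X), (∀ (g : Γ), ∀ S ∈ F, g • S ∈ F) ∧
      ∑ Z ∈ F, q ^ #Z ≤ K ^ (-((k : ℝ) / 40)) ∧
      ∀ T : Finset X, 1 ≤ ∑ S ∈ T.powerset, w S → ∃ Z ∈ F, Z ⊆ T

section spread

variable {Γ X : Type} [Group Γ] [Fintype Γ] [Fintype X] [DecidableEq X] [MulAction Γ X]

omit [Fintype X] in
theorem card_map_eq (T : Finset X) (h : Γ) (S : Finset X) :
    #{g : Γ | g • T = h • S} = #{g : Γ | g • T = S} := by
  symm
  apply card_bij (fun g _ => h * g)
  · intro g hg
    simp only [mem_filter, mem_univ, true_and] at hg ⊢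
    rw [mul_smul, hg]
  · intro g _ g' _ hh
    exact mul_left_cancel hh
  · intro g hg
    simp only [mem_filter, mem_univ, true_and] at hg
    refine ⟨h⁻¹ * g, ?_, by simp⟩
    simp only [mem_filter, mem_univ, true_and]
    rw [mul_smul, hg, inv_smul_smul]

/-- The cost of an invariant family is at least the cost of one orbit. -/
theorem orbit_cost_le {F : Finset (Finset X)} (hF : ∀ (g : Γ), ∀ S ∈ F, g • S ∈ F)
    {q : ℝ} (hq : 0 ≤ q) {S : Finset X} (hS : S ∈ F) :
    (Fintype.card Γ : ℝ) * q ^ #S ≤ #{g : Γ | g • S = S} * ∑ Z ∈ F, q ^ #Z := by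
  have h1 : Fintype.card Γ = ∑ Z ∈ F, #{g : Γ | g • S = Z} := by
    rw [← card_univ]
    exact card_eq_sum_card_fiberwise (fun g _ => hF g S hS)
  have h2 : (Fintype.card Γ : ℝ) * q ^ #S = ∑ Z ∈ F, (#{g : Γ | g • S = Z} : ℝ) * q ^ #S := by
    rw [h1]
    push_cast
    rw [sum_mul]
  rw [h2, mul_sum]
  apply sum_le_sum
  intro Z _
  rcases (univ.filter (fun g : Γ => g • S = Z)).eq_empty_or_nonempty with h | ⟨a, ha⟩
  · rw [h]
    simp only [card_empty, Nat.cast_zero, zero_mul]
    positivity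
  · rw [mem_filter] at ha
    have h3 : #Z = #S := by rw [← ha.2, card_smul_finset]
    have h4 : #{g : Γ | g • S = Z} = #{g : Γ | g • S = S} := by
      rw [← ha.2]
      exact card_map_eq S a S
    rw [h3, h4]

theorem spread_of_claim {H : Finset X} {p K : ℝ} (hp : 0 < p) (hK : 2 ^ 41 ≤ K)
    (hstab : ∀ S ⊆ H, (#{g : Γ | g • S = S} : ℝ) ≤ 2 * p ^ #S * Fintype.card Γ)
    (hclaim : CoverClaim Γ X p K) {T : Finset X} (hT : T.Nonempty) :
    (cnt Γ T H : ℝ) ≤ (K * p) ^ #T * Fintype.card Γ := by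
  by_contra hcon
  rw [not_le] at hcon
  have hK0 : 0 < K := lt_of_lt_of_le (by norm_num) hK
  have hG : (0 : ℝ) < Fintype.card Γ := by exact_mod_cast Fintype.card_pos
  have hk : 1 ≤ #T := card_pos.2 hT
  have hc0 : (0 : ℝ) < cnt Γ T H := lt_trans (by positivity) hcon
  have hsum : ∀ A : Finset (Finset X), ∑ S ∈ A, (#{g : Γ | g • T = S} : ℝ)
      = #{g : Γ | g • T ∈ A} := by
    intro A
    have : #{g : Γ | g • T ∈ A} = ∑ S ∈ A, #{g : Γ | g • T = S} := by
      rw [card_eq_sum_card_fiberwise (f := fun g : Γ => g • T) (t := A)]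
      · apply sum_congr rfl
        intro S hS
        congr 1
        ext g
        simp only [mem_filter, mem_univ, true_and]
        constructor
        · exact fun h => h.2
        · intro h
          exact ⟨by rw [h]; exact hS, h⟩
      · intro g hg
        simp only [coe_filter, mem_univ, true_and, Set.mem_ofPred_eq] at hg
        exact hg
    rw [this]
    push_cast
    rfl
  obtain ⟨F, hF, hcost, hcov⟩ := hclaim #T (fun S => (#{g : Γ | g • T = S} : ℝ) / cnt Γ T H) hk
    (fun S => by positivity)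
    (by
      intro S hS
      have h1 : (univ.filter (fun g : Γ => g • T = S)).Nonempty := by
        rw [nonempty_iff_ne_empty]
        intro h
        apply hS
        simp only [h, card_empty, Nat.cast_zero, zero_div]
      obtain ⟨g, hg⟩ := h1
      rw [mem_filter] at hg
      rw [← hg.2, card_smul_finset])
    (by
      intro g S
      simp only [card_map_eq T g S])
    (by
      rw [← sum_div, hsum, div_mul_eq_mul_div, div_le_one hc0]
      simp only [mem_univ, filter_true, card_univ]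
      linarith)
  obtain ⟨S, hS, hSH⟩ := hcov H (by
    rw [← sum_div, hsum]
    have : #{g : Γ | g • T ∈ H.powerset} = cnt Γ T H := by
      unfold cnt
      simp only [mem_powerset]
    rw [this, div_self hc0.ne'])
  have h1 := orbit_cost_le hF hp.le hS
  have h2 := hstab S hSH
  have hps : 0 < p ^ #S := pow_pos hp _
  have hc1 : (0 : ℝ) ≤ ∑ Z ∈ F, p ^ #Z := sum_nonneg (fun Z _ => by positivity)
  have h3 : (Fintype.card Γ : ℝ) * p ^ #S ≤ (2 * p ^ #S * Fintype.card Γ) * ∑ Z ∈ F, p ^ #Z :=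
    h1.trans (mul_le_mul_of_nonneg_right h2 hc1)
  have h4 : (1 : ℝ) ≤ 2 * ∑ Z ∈ F, p ^ #Z := by
    have h5 : 1 * ((Fintype.card Γ : ℝ) * p ^ #S)
        ≤ (2 * ∑ Z ∈ F, p ^ #Z) * ((Fintype.card Γ : ℝ) * p ^ #S) := by linarith
    exact le_of_mul_le_mul_right h5 (by positivity)
  have h6 : K ^ (-((#T : ℝ) / 40)) < 1 / 2 := by
    have hk' : (1 : ℝ) ≤ #T := by exact_mod_cast hk
    have hK1 : (1 : ℝ) ≤ K := le_trans (by norm_num) hK
    calc K ^ (-((#T : ℝ) / 40)) ≤ K ^ (-(1 / 40) : ℝ) := by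
          apply Real.rpow_le_rpow_of_exponent_le hK1
          linarith
      _ ≤ ((2 : ℝ) ^ 41) ^ (-(1 / 40) : ℝ) := by
          apply Real.rpow_le_rpow_of_nonpos (by positivity) hK (by norm_num)
      _ = (2 : ℝ) ^ (-(41 / 40) : ℝ) := by
          rw [← Real.rpow_natCast, ← Real.rpow_mul (by norm_num)]
          norm_num
      _ < (2 : ℝ) ^ (-1 : ℝ) := by
          apply Real.rpow_lt_rpow_of_exponent_lt (by norm_num)
          norm_num
      _ = 1 / 2 := by
          rw [Real.rpow_neg_one]; norm_num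
  linarith

end spread

section

variable {n : ℕ} {W : Type} (φ : W ↪ Fin n) (H : SimpleGraph W)

include φ in
theorem pc_le_aux_one (he : 1 ≤ H.edgeSet.ncard) (k : ℕ) (hk : H.edgeSet.ncard ≤ 2 ^ k) {K : ℝ}
    (hK : 2 ^ 41 ≤ K) {p : ℝ}
    (hclaim : 0 < p → CoverClaim (Equiv.Perm (Fin n)) (Ed n) p K) (hp0 : 0 ≤ p) (hp1 : p ≤ 1)
    (hp : ∀ F : H.Subgraph, 1 / 2 ≤ expect n p (fun G => (G.copyCount F.coe : ℝ))) :
    pc n H ≤ 16 * K * (k + 1) * p := by
  classical
  have hK0 : 0 < K := lt_of_lt_of_le (by norm_num) hK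
  have hE : #(edgesOf (H.map φ)) = H.edgeSet.ncard := card_edgesOf_map φ H
  have hppos : 0 < p := by
    rcases hp0.lt_or_eq with h | h
    · exact h
    · exfalso
      have h1 := (hp (subOf φ H _ (Subset.refl _))).trans
        (expect_copyCount_le hp0 hp1 (Subset.refl (edgesOf (H.map φ))))
      rw [← h, zero_pow (by omega), mul_zero] at h1
      norm_num at h1
  rcases le_or_gt (16 * K * ((k : ℝ) + 1) * p) 1 with hle | hgt
  · apply pc_le_of_mem
    refine ⟨by positivity, hle, ?_⟩
    have hspread : ∀ T : Finset (Ed n),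
        (#{g ∈ (univ : Finset (Equiv.Perm (Fin n))) | T ⊆ g • edgesOf (H.map φ)} : ℝ)
        ≤ (K * p) ^ #T * #(univ : Finset (Equiv.Perm (Fin n))) := by
      intro T
      rcases T.eq_empty_or_nonempty with hT | hT
      · subst hT
        simp
      · rw [cnt_eq, card_univ]
        exact spread_of_claim hppos hK (stab_le φ H hp0 hp1 hp) (hclaim hppos) hT
    have h2 := spread_lemma (ρ := K * p) (by positivity)
      (univ : Finset (Equiv.Perm (Fin n))) univ_nonempty
      (fun g => g • edgesOf (H.map φ)) (k + 1) (by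
        intro g _
        rw [card_smul_finset, hE, pow_succ]
        have : 0 < 2 ^ k := by positivity
        omega) hspread (p := 16 * K * (k + 1) * p) (by
          push_cast
          apply le_of_eq
          ring)
      (by omega) hle
    unfold prob
    rw [expect_eq]
    have h3 : (1 : ℝ) / 2 ≤ 3 / 4 := by norm_num
    refine h3.trans (h2.trans ?_)
    apply ex_mono (by positivity) hle
    intro A _
    split_ifs with h4 h5 h5
    · exact le_refl _
    · exfalso
      apply h5
      obtain ⟨g, -, hg⟩ := h4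
      exact contained_of_subset φ H hg
    · norm_num
    · exact le_refl _
  · exact (pc_le_of_mem H (pc_nonempty φ H)).trans hgt.le

end

/-- the main estimate, from the equivariant covering claim for the ratio `K` -/
theorem main_one {K : ℝ} (hK : 2 ^ 41 ≤ K) {n : ℕ}
    (hclaim : ∀ p : ℝ, 0 < p → CoverClaim (Equiv.Perm (Fin n)) (Ed n) p K)
    {W : Type} [Fintype W] (H : SimpleGraph W)
    (hW : Fintype.card W ≤ n) (he : 1 ≤ H.edgeSet.ncard) :
    pc n H ≤ 50 * K * pE n H * Real.log (2 * H.edgeSet.ncard) := by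
  obtain ⟨φ⟩ : Nonempty (W ↪ Fin n) :=
    Function.Embedding.nonempty_of_card_le (by rw [Fintype.card_fin]; exact hW)
  have hK0 : 0 < K := lt_of_lt_of_le (by norm_num) hK
  set e := H.edgeSet.ncard with hedef
  have heR : (1 : ℝ) ≤ e := by exact_mod_cast he
  set L := Real.log (2 * e) with hL
  have hlog2 := Real.log_two_gt_d9
  have hL2 : Real.log 2 ≤ L := Real.log_le_log (by norm_num) (by linarith)
  have hLpos : 0 < L := by linarith
  have hLsplit : L = Real.log 2 + Real.log e := Real.log_mul (by norm_num) (by positivity)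
  -- the bound for `k`
  have hk : ((Nat.clog 2 e : ℕ) : ℝ) + 1 ≤ 2 * L / Real.log 2 := by
    rw [le_div_iff₀ (by linarith)]
    rcases Nat.lt_or_ge 1 e with h | h
    · have h1 := Nat.pow_pred_clog_lt_self (by norm_num : 1 < 2) h
      have h2 : 0 < Nat.clog 2 e := Nat.clog_pos (by norm_num) h
      have h3 : ((2 : ℝ)) ^ (Nat.clog 2 e).pred ≤ e := by exact_mod_cast h1.le
      have h4 := Real.log_le_log (by positivity) h3
      rw [Real.log_pow] at h4
      have h5 : (((Nat.clog 2 e).pred : ℕ) : ℝ) = (Nat.clog 2 e : ℝ) - 1 := by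
        rw [Nat.pred_eq_sub_one, Nat.cast_sub h2]
        simp
      rw [h5] at h4
      have h6 : 0 ≤ Real.log e := Real.log_nonneg heR
      rw [hLsplit]
      nlinarith
    · have h1 : e = 1 := by omega
      rw [h1, Nat.clog_one_right]
      rw [hLsplit, h1]
      simp
      linarith
  have hbound : ∀ p ∈ {p : ℝ | 0 ≤ p ∧ p ≤ 1 ∧
      ∀ F : H.Subgraph, 1 / 2 ≤ expect n p (fun G => (G.copyCount F.coe : ℝ))},
      pc n H / (50 * K * L) ≤ p := by
    rintro p ⟨hp0, hp1, hp⟩
    rw [div_le_iff₀ (by positivity)]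
    have h1 := pc_le_aux_one φ H he (Nat.clog 2 e) (Nat.le_pow_clog (by norm_num) e) hK
      (hclaim p) hp0 hp1 hp
    refine h1.trans ?_
    have h3 : (2 * L / Real.log 2) * 16 ≤ 50 * L := by
      rw [div_mul_eq_mul_div, div_le_iff₀ (by positivity)]
      nlinarith
    calc 16 * K * (((Nat.clog 2 e : ℕ) : ℝ) + 1) * p
        ≤ 16 * K * (2 * L / Real.log 2) * p := by gcongr
      _ = K * ((2 * L / Real.log 2) * 16) * p := by ring
      _ ≤ K * (50 * L) * p := by gcongr
      _ = p * (50 * K * L) := by ring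
  have h1 : pc n H / (50 * K * L) ≤ pE n H := by
    unfold pE
    exact le_csInf ⟨1, pE_nonempty φ H⟩ hbound
  rw [div_le_iff₀ (by positivity)] at h1
  linarith

theorem log_edges_le {n : ℕ} {W : Type} [Fintype W] (H : SimpleGraph W)
    (hW : Fintype.card W ≤ n) (he : 1 ≤ H.edgeSet.ncard) :
    Real.log (2 * H.edgeSet.ncard) ≤ 2 * Real.log n := by
  obtain ⟨φ⟩ : Nonempty (W ↪ Fin n) :=
    Function.Embedding.nonempty_of_card_le (by rw [Fintype.card_fin]; exact hW)
  have h1 : H.edgeSet.ncard ≤ n.choose 2 := by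
    rw [← card_edgesOf_map φ H, ← card_Ed]
    exact card_le_univ _
  have h2 : 2 * H.edgeSet.ncard ≤ n ^ 2 := by
    rw [Nat.choose_two_right] at h1
    have h4 : n * (n - 1) ≤ n ^ 2 := by
      rw [pow_two]
      exact Nat.mul_le_mul_left _ (Nat.sub_le _ _)
    generalize n * (n - 1) = a at h1 h4
    generalize n ^ 2 = b at h4 ⊢
    omega
  have h3 : (2 * (H.edgeSet.ncard : ℝ)) ≤ (n : ℝ) ^ 2 := by exact_mod_cast h2
  have he1 : (1 : ℝ) ≤ H.edgeSet.ncard := by exact_mod_cast he
  have := Real.log_le_log (by positivity) h3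
  rw [Real.log_pow] at this
  exact_mod_cast this

theorem main_one_log_n {K : ℝ} (hK : 2 ^ 41 ≤ K) {n : ℕ}
    (hclaim : ∀ p : ℝ, 0 < p → CoverClaim (Equiv.Perm (Fin n)) (Ed n) p K)
    {W : Type} [Fintype W] (H : SimpleGraph W)
    (hW : Fintype.card W ≤ n) (he : 1 ≤ H.edgeSet.ncard) :
    pc n H ≤ 100 * K * pE n H * Real.log n := by
  refine (main_one hK hclaim H hW he).trans ?_
  have hK0 : 0 < K := lt_of_lt_of_le (by norm_num) hK
  have h4 := log_edges_le H hW he
  have h7 := pE_nonneg (n := n) H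
  calc 50 * K * pE n H * Real.log (2 * H.edgeSet.ncard)
      ≤ 50 * K * pE n H * (2 * Real.log n) := by gcongr
    _ = 100 * K * pE n H * Real.log n := by ring

end P064
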